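import Vale.Agent.Lib.P310.Spoil

namespace Vale.Agent.Lib.P310

open scoped Classical
open Finset

noncomputable section

namespace Cov

variable {I : Cov} {w : ℕ}

/-! Size of the graphs. -/

/-- The variables of a fiber, as a finite set. -/
def fibVars (φ : I.Fiber w) : Finset (I.PVar w) := Finset.univ.filter (fun v => I.inFib w φ v)

lemma card_edges_node (N : Fin (I.pathLen w)) :
    (Finset.univ.filter (fun p : Fin (I.pathLen w) × Fin (I.pathLen w) =>
      p.1 < p.2 ∧ p.2.val ≤ p.1.val + w ∧ (N = p.1 ∨ N = p.2))).card ≤ w + w := by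
  have hsub : Finset.univ.filter (fun p : Fin (I.pathLen w) × Fin (I.pathLen w) =>
      p.1 < p.2 ∧ p.2.val ≤ p.1.val + w ∧ (N = p.1 ∨ N = p.2)) ⊆
      (Finset.univ.filter (fun p : Fin (I.pathLen w) × Fin (I.pathLen w) =>
        N = p.1 ∧ p.1 < p.2 ∧ p.2.val ≤ p.1.val + w)) ∪
      (Finset.univ.filter (fun p : Fin (I.pathLen w) × Fin (I.pathLen w) =>
        N = p.2 ∧ p.1 < p.2 ∧ p.2.val ≤ p.1.val + w)) := by
    intro p hp
    simp only [Finset.mem_filter, Finset.mem_univ, true_and, Finset.mem_union] at hp ⊢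
    rcases hp.2.2 with h | h
    · exact Or.inl ⟨h, hp.1, hp.2.1⟩
    · exact Or.inr ⟨h, hp.1, hp.2.1⟩
  refine (Finset.card_le_card hsub).trans ((Finset.card_union_le _ _).trans ?_)
  apply Nat.add_le_add
  · have := Finset.card_le_card_of_injOn (s := Finset.univ.filter
        (fun p : Fin (I.pathLen w) × Fin (I.pathLen w) =>
        N = p.1 ∧ p.1 < p.2 ∧ p.2.val ≤ p.1.val + w)) (t := Finset.range w)
      (fun p => p.2.val - p.1.val - 1)
      (by
        intro p hp
        simp only [Finset.coe_filter, Finset.mem_univ, true_and] at hp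
        simp only [Finset.coe_range, Set.mem_Iio]
        have h1 : p.1.val < p.2.val := hp.2.1
        have h2 := hp.2.2
        omega)
      (by
        rintro ⟨a, b⟩ ha ⟨c, d⟩ hb he
        simp only [Finset.coe_filter, Finset.mem_univ, true_and] at ha hb
        simp only at he
        have h1 : a.val < b.val := ha.2.1
        have h3 : c.val < d.val := hb.2.1
        have h5 : a = c := ha.1.symm.trans hb.1
        subst h5
        have : b = d := Fin.ext (by omega)
        subst this
        rfl)
    simpa using this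
  · have := Finset.card_le_card_of_injOn (s := Finset.univ.filter
        (fun p : Fin (I.pathLen w) × Fin (I.pathLen w) =>
        N = p.2 ∧ p.1 < p.2 ∧ p.2.val ≤ p.1.val + w)) (t := Finset.range w)
      (fun p => p.2.val - p.1.val - 1)
      (by
        intro p hp
        simp only [Finset.coe_filter, Finset.mem_univ, true_and] at hp
        simp only [Finset.coe_range, Set.mem_Iio]
        have h1 : p.1.val < p.2.val := hp.2.1
        have h2 := hp.2.2
        omega)
      (by
        rintro ⟨a, b⟩ ha ⟨c, d⟩ hb he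
        simp only [Finset.coe_filter, Finset.mem_univ, true_and] at ha hb
        simp only at he
        have h1 : a.val < b.val := ha.2.1
        have h3 : c.val < d.val := hb.2.1
        have h5 : b = d := ha.1.symm.trans hb.1
        subst h5
        have : a = c := Fin.ext (by omega)
        subst this
        rfl)
    simpa using this

lemma card_ext_node (N : Fin (I.pathLen w)) :
    (Finset.univ.filter (fun x : I.Ext => N.val = I.occ1 w x ∨ N.val = I.occ2 w x)).card ≤ 2 := by
  have hsub : Finset.univ.filter (fun x : I.Ext => N.val = I.occ1 w x ∨ N.val = I.occ2 w x) ⊆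
      (Finset.univ.filter (fun x : I.Ext => N.val = I.occ1 w x)) ∪
      (Finset.univ.filter (fun x : I.Ext => N.val = I.occ2 w x)) := by
    intro p hp
    simp only [Finset.mem_filter, Finset.mem_univ, true_and, Finset.mem_union] at hp ⊢
    exact hp
  refine (Finset.card_le_card hsub).trans ((Finset.card_union_le _ _).trans ?_)
  have h1 : (Finset.univ.filter (fun x : I.Ext => N.val = I.occ1 w x)).card ≤ 1 := by
    apply Finset.card_le_one.2
    intro a ha b hb
    have ha' := (Finset.mem_filter.1 ha).2
    have hb' := (Finset.mem_filter.1 hb).2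
    simp only [occ1] at ha' hb'
    exact I.idx_inj (by omega)
  have h2 : (Finset.univ.filter (fun x : I.Ext => N.val = I.occ2 w x)).card ≤ 1 := by
    apply Finset.card_le_one.2
    intro a ha b hb
    have ha' := (Finset.mem_filter.1 ha).2
    have hb' := (Finset.mem_filter.1 hb).2
    simp only [occ2] at ha' hb'
    exact I.idx_inj (by omega)
  omega

lemma card_fibVars_node (N : Fin (I.pathLen w)) :
    (fibVars (I := I) (w := w) (Sum.inl N)).card ≤ w + w + 2 := by
  have hsub : fibVars (I := I) (w := w) (Sum.inl N) ⊆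
      (Finset.univ.filter (fun p : Fin (I.pathLen w) × Fin (I.pathLen w) =>
        p.1 < p.2 ∧ p.2.val ≤ p.1.val + w ∧ (N = p.1 ∨ N = p.2))).image Sum.inl ∪
      (Finset.univ.filter (fun x : I.Ext => N.val = I.occ1 w x ∨ N.val = I.occ2 w x)).image
        Sum.inr := by
    intro v hv
    simp only [fibVars, Finset.mem_filter, Finset.mem_univ, true_and] at hv
    rcases v with p | x
    · apply Finset.mem_union_left
      exact Finset.mem_image.2 ⟨p, Finset.mem_filter.2 ⟨Finset.mem_univ _, hv⟩, rfl⟩
    · apply Finset.mem_union_right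
      exact Finset.mem_image.2 ⟨x, Finset.mem_filter.2 ⟨Finset.mem_univ _, hv⟩, rfl⟩
  refine (Finset.card_le_card hsub).trans ((Finset.card_union_le _ _).trans ?_)
  have h1 := (Finset.card_image_le (s := Finset.univ.filter
    (fun p : Fin (I.pathLen w) × Fin (I.pathLen w) =>
        p.1 < p.2 ∧ p.2.val ≤ p.1.val + w ∧ (N = p.1 ∨ N = p.2)))
      (f := (Sum.inl : _ → I.PVar w))).trans (card_edges_node N)
  have h2 := (Finset.card_image_le (s := Finset.univ.filter
    (fun x : I.Ext => N.val = I.occ1 w x ∨ N.val = I.occ2 w x))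
      (f := (Sum.inr : _ → I.PVar w))).trans (card_ext_node N)
  omega

lemma card_fibVars_choice (g : Fin I.k) (a : I.A g) {D : ℕ}
    (hD : (Finset.univ.filter (fun C => I.Sat g a C)).card ≤ D) :
    (fibVars (I := I) (w := w) (Sum.inr ⟨g, a⟩)).card ≤ I.k + 1 + D := by
  have hsub : fibVars (I := I) (w := w) (Sum.inr ⟨g, a⟩) ⊆
      (Finset.univ : Finset (Fin (I.k + 1))).image (fun j => Sum.inr (Sum.inl (g, j))) ∪
      (Finset.univ.filter (fun C => I.Sat g a C)).image (fun C => Sum.inr (Sum.inr C)) := by
    intro v hv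
    simp only [fibVars, Finset.mem_filter, Finset.mem_univ, true_and] at hv
    rcases v with p | (⟨g', j⟩ | C)
    · exact False.elim hv
    · have h : g' = g := hv
      subst h
      apply Finset.mem_union_left
      exact Finset.mem_image.2 ⟨j, Finset.mem_univ _, rfl⟩
    · apply Finset.mem_union_right
      exact Finset.mem_image.2 ⟨C, Finset.mem_filter.2 ⟨Finset.mem_univ _, hv⟩, rfl⟩
  refine (Finset.card_le_card hsub).trans ((Finset.card_union_le _ _).trans ?_)
  have h1 := Finset.card_image_le (s := (Finset.univ : Finset (Fin (I.k + 1))))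
    (f := fun j => (Sum.inr (Sum.inl (g, j)) : I.PVar w))
  have h2 := (Finset.card_image_le (s := Finset.univ.filter (fun C => I.Sat g a C))
    (f := fun C => (Sum.inr (Sum.inr C) : I.PVar w))).trans hD
  simp only [Finset.card_univ, Fintype.card_fin] at h1
  omega

/-- The number of base vertices in a fiber is at most `2 ^ (number of variables)`. -/
lemma card_vx_le {b : ZMod 2} {E : ℕ} (hE : ∀ φ : I.Fiber w, (fibVars (I := I) (w := w) φ).card ≤ E) :
    Fintype.card (I.Vx w b) ≤ Fintype.card (I.Fiber w) * 2 ^ E := by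
  let F : I.Vx w b → Σ φ : I.Fiber w, ({v // v ∈ fibVars (I := I) (w := w) φ} → ZMod 2) :=
    fun u => ⟨u.fib, fun v => u.a v.1⟩
  have hF : Function.Injective F := by
    intro u u' h
    obtain ⟨f, a, s, p⟩ := u
    obtain ⟨f', a', s', p'⟩ := u'
    obtain ⟨h1, h2⟩ := Sigma.mk.inj_iff.1 h
    simp only at h1 h2
    subst h1
    have h3 := eq_of_heq h2
    apply Vx.ext
    · rfl
    funext v
    simp only
    by_cases hv : I.inFib w f v
    · have hv' : v ∈ fibVars (I := I) (w := w) f := Finset.mem_filter.2 ⟨Finset.mem_univ _, hv⟩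
      exact congrFun h3 ⟨v, hv'⟩
    · rw [s v hv, s' v hv]
  have h := Fintype.card_le_of_injective F hF
  refine h.trans ?_
  rw [Fintype.card_sigma]
  calc ∑ φ : I.Fiber w, Fintype.card ({v // v ∈ fibVars (I := I) (w := w) φ} → ZMod 2)
      ≤ ∑ _φ : I.Fiber w, 2 ^ E := by
        apply Finset.sum_le_sum
        intro φ _
        rw [Fintype.card_fun, ZMod.card]
        simp only [Fintype.card_coe]
        exact Nat.pow_le_pow_right (by norm_num) (hE φ)
    _ = Fintype.card (I.Fiber w) * 2 ^ E := by
        simp [Finset.card_univ]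

/-- The number of vertices of the graph in terms of fibers and base vertices. -/
lemma card_vtx_le (hw : 1 ≤ w) {V0 F0 : ℕ} (hV : Fintype.card (I.Vx w 0) ≤ V0)
    (hF : Fintype.card (I.Fiber w) ≤ F0) :
    Fintype.card (I.Vtx w 0) ≤ V0 + V0 * (F0 * (V0 + 2)) := by
  simp only [Fintype.card_sum, Fintype.card_sigma, Fintype.card_fin]
  have hm : ∀ u : I.Vx w 0, I.mult w u.fib ≤ F0 * (V0 + 2) := by
    intro u
    rw [mult_eq]
    apply Nat.mul_le_mul _ (by omega)
    have := (Fintype.equivFin (I.Fiber w) u.fib).isLt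
    omega
  have hs : ∑ u : I.Vx w 0, I.mult w u.fib ≤ V0 * (F0 * (V0 + 2)) := by
    calc ∑ u : I.Vx w 0, I.mult w u.fib ≤ ∑ _u : I.Vx w 0, F0 * (V0 + 2) :=
          Finset.sum_le_sum (fun u _ => hm u)
      _ = Fintype.card (I.Vx w 0) * (F0 * (V0 + 2)) := by simp [Finset.card_univ]
      _ ≤ V0 * (F0 * (V0 + 2)) := Nat.mul_le_mul_right _ hV
  omega

lemma card_fiber_le {A0 : ℕ} (hA : ∀ g, Fintype.card (I.A g) ≤ A0) :
    Fintype.card (I.Fiber w) ≤ I.pathLen w + I.k * A0 := by
  simp only [Fintype.card_sum, Fintype.card_fin, Fintype.card_sigma]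
  have : ∑ g : Fin I.k, Fintype.card (I.A g) ≤ I.k * A0 := by
    calc ∑ g : Fin I.k, Fintype.card (I.A g) ≤ ∑ _g : Fin I.k, A0 :=
          Finset.sum_le_sum (fun g _ => hA g)
      _ = I.k * A0 := by simp
  omega

lemma pathLen_eq : I.pathLen w =
    4 * (I.k + w + 2) + 2 * (I.k * (I.k + 1) + Fintype.card I.Cl) + 1 := by
  have h1 : I.pathLen w = I.mid w + 2 * I.gap w + 1 + I.numExt := rfl
  have h2 : I.mid w = 2 * I.gap w + I.numExt := rfl
  have h3 : I.gap w = I.k + w + 2 := rfl
  have h4 : I.numExt = I.k * (I.k + 1) + Fintype.card I.Cl := by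
    simp [numExt, Fintype.card_sum, Fintype.card_prod]
  omega

/-- The size bound of the reduction: with at most `A0` choices per group and at most `D` clauses
satisfied per choice. -/
theorem card_bound (hw : I.k + 2 ≤ w) {A0 D : ℕ} (hA : ∀ g, Fintype.card (I.A g) ≤ A0)
    (hD : ∀ g a, (Finset.univ.filter (fun C => I.Sat g a C)).card ≤ D) :
    Fintype.card (I.Vtx w 0) ≤ sizeBound I.k w (Fintype.card I.Cl) A0 D := by
  set F0 := 4 * (I.k + w + 2) + 2 * (I.k * (I.k + 1) + Fintype.card I.Cl) + 1 + I.k * A0 with hF0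
  set V0 := F0 * 2 ^ (w + w + 2 + D) with hV0
  have hF : Fintype.card (I.Fiber w) ≤ F0 := by
    have := card_fiber_le (I := I) (w := w) hA
    have h2 := pathLen_eq (I := I) (w := w)
    omega
  have hE : ∀ φ : I.Fiber w, (fibVars (I := I) (w := w) φ).card ≤ w + w + 2 + D := by
    rintro (N | ⟨g, a⟩)
    · have := card_fibVars_node (I := I) (w := w) N
      omega
    · have := card_fibVars_choice (I := I) (w := w) g a (hD g a)
      omega
  have hV : Fintype.card (I.Vx w 0) ≤ V0 :=
    (card_vx_le hE).trans (Nat.mul_le_mul_right _ hF)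
  exact card_vtx_le (by omega) hV hF

end Cov

end

end Vale.Agent.Lib.P310
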