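import Mathlib

/-!
Joint-update Weisfeiler-Leman refinement, with colours as plain data.
-/

namespace Vale.Agent.Lib.P310

open scoped Classical

/-- The atomic type of a tuple: which entries are equal and which are adjacent. -/
noncomputable def atomicType {V : Type} (G : SimpleGraph V) {t : ℕ} (x : Fin t → V) :
    Fin t → Fin t → Bool × Bool :=
  fun i j => (decide (x i = x j), decide (G.Adj (x i) (x j)))

/-- The type of colours of round `r`: atomic types, then pairs of an old colour and a
multiset of tuples of old colours. -/
def Color (t : ℕ) : ℕ → Type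
  | 0 => Fin t → Fin t → Bool × Bool
  | r + 1 => Color t r × Multiset (Fin t → Color t r)

/-- The colour of a tuple after `r` rounds of joint-update refinement. -/
noncomputable def wlColor {V : Type} [Fintype V] (G : SimpleGraph V) (t : ℕ) :
    (r : ℕ) → (Fin t → V) → Color t r
  | 0, x => atomicType G x
  | r + 1, x =>
    (wlColor G t r x,
      (Finset.univ : Finset V).val.map
        (fun y => fun i => wlColor G t r (Function.update x i y)))

/-- `t`-WL equivalence: for every round the multisets of colours of all `t`-tuples agree. -/
def WLEquiv {V W : Type} [Fintype V] [Fintype W] (t : ℕ) (G : SimpleGraph V) (H : SimpleGraph W) :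
    Prop :=
  ∀ r : ℕ,
    (Finset.univ : Finset (Fin t → V)).val.map (wlColor G t r) =
      (Finset.univ : Finset (Fin t → W)).val.map (wlColor H t r)


/-!
A covering instance: `k` groups, each with a finite set `A g` of local choices, and a finite set
`Cl` of clauses; `Sat g a C` says that the choice `a` of group `g` satisfies the clause `C`.
-/

/-- A covering instance. -/
structure Cov where
  k : ℕ
  A : Fin k → Type
  instA : ∀ g, Fintype (A g)
  Cl : Type
  instC : Fintype Cl
  Sat : ∀ g, A g → Cl → Prop

attribute [instance] Cov.instA Cov.instC

namespace Cov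

variable (I : Cov) (w : ℕ)

/-- Extra variables: `k + 1` hub variables per group, one variable per clause. -/
abbrev Ext : Type := (Fin I.k × Fin (I.k + 1)) ⊕ I.Cl

/-- A fixed enumeration of the extra variables. -/
noncomputable def idx (x : I.Ext) : ℕ := (Fintype.equivFin I.Ext x).val

/-- The number of extra variables. -/
noncomputable def numExt : ℕ := Fintype.card I.Ext

/-- The length of the margins and gaps of the path. -/
def gap : ℕ := I.k + w + 2

/-- The middle node of the path. -/
noncomputable def mid : ℕ := 2 * I.gap w + I.numExt

/-- The number of nodes of the path. -/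
noncomputable def pathLen : ℕ := I.mid w + 2 * I.gap w + 1 + I.numExt

/-- The node left of the middle that carries the extra variable `x`. -/
noncomputable def occ1 (x : I.Ext) : ℕ := I.gap w + I.idx x

/-- The node right of the middle that carries the extra variable `x`. -/
noncomputable def occ2 (x : I.Ext) : ℕ := I.mid w + I.gap w + 1 + I.idx x

/-- Variables of the system: pairs of nodes (those at distance at most `w` are the edges of the
`w`-th power of the path) and the extra variables. -/
abbrev PVar : Type := (Fin (I.pathLen w) × Fin (I.pathLen w)) ⊕ I.Ext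

/-- The variables occurring at a node: incident edges, and the extra variable placed there. -/
def onNode (N : Fin (I.pathLen w)) : I.PVar w → Prop
  | Sum.inl p => p.1 < p.2 ∧ p.2.val ≤ p.1.val + w ∧ (N = p.1 ∨ N = p.2)
  | Sum.inr x => N.val = I.occ1 w x ∨ N.val = I.occ2 w x

/-- The fibers of the graph: one per node of the path, one per local choice. -/
abbrev Fiber : Type := Fin (I.pathLen w) ⊕ (Σ g, I.A g)

/-- The variables of a fiber. A choice fiber holds all hub variables of its group, and the
variables of the clauses its choice satisfies. -/
def inFib : I.Fiber w → I.PVar w → Prop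
  | Sum.inl N, v => I.onNode w N v
  | Sum.inr _, Sum.inl _ => False
  | Sum.inr ⟨g, _⟩, Sum.inr (Sum.inl h) => h.1 = g
  | Sum.inr ⟨g, a⟩, Sum.inr (Sum.inr C) => I.Sat g a C

/-- The parity of a fiber under an assignment: the sum over the variables at a node; choice
fibers are unconstrained. -/
noncomputable def parity : I.Fiber w → (I.PVar w → ZMod 2) → ZMod 2
  | Sum.inl N, a => ∑ v, if I.onNode w N v then a v else 0
  | Sum.inr _, _ => 0

/-- The required parity of a fiber: `b` at node `0`, and `0` elsewhere. -/
def twist (b : ZMod 2) : I.Fiber w → ZMod 2
  | Sum.inl N => if N.val = 0 then b else 0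
  | Sum.inr _ => 0

/-- A base vertex: a fiber with an assignment of its variables of the required parity. -/
@[ext] structure Vx (b : ZMod 2) where
  fib : I.Fiber w
  a : I.PVar w → ZMod 2
  supp : ∀ v, ¬ I.inFib w fib v → a v = 0
  par : I.parity w fib a = I.twist w b fib

lemma Vx.finite (b : ZMod 2) : Finite (I.Vx w b) :=
  Finite.of_injective (fun u : I.Vx w b => (u.fib, u.a)) (by
    intro u u' h
    simp only [Prod.mk.injEq] at h
    exact Vx.ext h.1 h.2)

noncomputable instance (b : ZMod 2) : Fintype (I.Vx w b) :=
  @Fintype.ofFinite _ (Vx.finite I w b)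

/-- Base vertices are adjacent if they lie in different fibers and agree on all shared
variables. -/
def baseAdj {b : ZMod 2} (u u' : I.Vx w b) : Prop :=
  u.fib ≠ u'.fib ∧ ∀ v, I.inFib w u.fib v → I.inFib w u'.fib v → u.a v = u'.a v

/-- The number of pendant leaves at each vertex of a fiber; distinct fibers get different numbers,
far apart, so that degrees identify fibers. -/
noncomputable def mult (φ : I.Fiber w) : ℕ :=
  ((Fintype.equivFin (I.Fiber w) φ).val + 1) * (Fintype.card (I.Vx w 0) + 2)

/-- All vertices: base vertices and pendant leaves. -/
abbrev Vtx (b : ZMod 2) : Type := I.Vx w b ⊕ (Σ u : I.Vx w b, Fin (I.mult w u.fib))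

/-- The graph with required parities given by `b`: `b = 0` is the untwisted graph, `b = 1` the
twisted one. -/
noncomputable def Gr (b : ZMod 2) : SimpleGraph (I.Vtx w b) where
  Adj x y := match x, y with
    | Sum.inl u, Sum.inl u' => I.baseAdj w u u'
    | Sum.inl u, Sum.inr l => l.1 = u
    | Sum.inr l, Sum.inl u => l.1 = u
    | Sum.inr _, Sum.inr _ => False
  symm := by
    constructor
    rintro (u | l) (u' | l') h
    · exact ⟨fun e => h.1 e.symm, fun v h1 h2 => (h.2 v h2 h1).symm⟩
    · exact h
    · exact h
    · exact h
  loopless := by
    constructor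
    rintro (u | l) h
    · exact h.1 rfl
    · exact h

/-- The instance is solvable: one choice per group satisfies every clause. -/
def Solvable : Prop := ∃ a : ∀ g, I.A g, ∀ C : I.Cl, ∃ g, I.Sat g (a g) C

end Cov

/-- The explicit size bound of the reduction; `k` groups, `M` clauses, at most `A0` choices per
group, at most `D` clauses satisfied per choice. -/
def sizeBound (k w M A0 D : ℕ) : ℕ :=
  (4 * (k + w + 2) + 2 * (k * (k + 1) + M) + 1 + k * A0) * 2 ^ (w + w + 2 + D) +
    (4 * (k + w + 2) + 2 * (k * (k + 1) + M) + 1 + k * A0) * 2 ^ (w + w + 2 + D) *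
      ((4 * (k + w + 2) + 2 * (k * (k + 1) + M) + 1 + k * A0) *
        ((4 * (k + w + 2) + 2 * (k * (k + 1) + M) + 1 + k * A0) * 2 ^ (w + w + 2 + D) + 2))

/-- The covering instance of a CNF formula with its variables split into `k` groups: a choice for
a group is an assignment of its variables, and it satisfies a clause if it makes one of the
literals true. -/
noncomputable def cnfCov {α : Type} (Φ : Finset (Finset (α × Bool))) (k : ℕ) (group : α → Fin k)
    [Fintype α] : Cov where
  k := k
  A := fun g => ({x // group x = g} → Bool)
  instA := fun _ => inferInstance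
  Cl := {C // C ∈ Φ}
  instC := inferInstance
  Sat := fun g a C => ∃ l ∈ C.1, ∃ h : group l.1 = g, a ⟨l.1, h⟩ = l.2

end Vale.Agent.Lib.P310
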