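import Vale.Agent.Lib.P310.WL

namespace Vale.Agent.Lib.P310

open scoped Classical
open Finset

noncomputable section

namespace Cov

variable (I : Cov) (w : ℕ)

/-- Flip the value of one variable. -/
def flipV (Θ : I.PVar w → ZMod 2) (v0 : I.PVar w) : I.PVar w → ZMod 2 :=
  fun v => Θ v + if v = v0 then 1 else 0

lemma parity_flip (N : Fin (I.pathLen w)) (Θ : I.PVar w → ZMod 2) (v0 : I.PVar w) :
    I.parity w (Sum.inl N) (I.flipV w Θ v0) =
      I.parity w (Sum.inl N) Θ + if I.onNode w N v0 then 1 else 0 := by
  simp only [parity, flipV]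
  have h : ∀ v, (if I.onNode w N v then Θ v + (if v = v0 then (1 : ZMod 2) else 0) else 0) =
      (if I.onNode w N v then Θ v else 0) +
        (if v = v0 then (if I.onNode w N v0 then (1 : ZMod 2) else 0) else 0) := by
    intro v
    by_cases hv : v = v0
    · subst hv; by_cases h1 : I.onNode w N v <;> simp [h1]
    · by_cases h1 : I.onNode w N v <;> simp [h1, hv]
  rw [Finset.sum_congr rfl (fun v _ => h v), Finset.sum_add_distrib]
  simp

/-- A path node is pinned. -/
def pin (P : Finset (I.Fiber w)) (n : ℕ) : Prop :=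
  ∃ h : n < I.pathLen w, (Sum.inl ⟨n, h⟩ : I.Fiber w) ∈ P

/-- `w` consecutive nodes from `i` on are pinned. -/
def Window (P : Finset (I.Fiber w)) (i : ℕ) : Prop := ∀ j, j < w → I.pin w P (i + j)

/-- No window separates two nodes. -/
def Conn (P : Finset (I.Fiber w)) (a b : ℕ) : Prop :=
  ∀ i, I.Window w P i → ¬ (a < i ∧ i + w ≤ b) ∧ ¬ (b < i ∧ i + w ≤ a)

/-- The location rule: a window left of the middle has the robber on its right, and a window
right of the middle has the robber on its left. -/
def Good (P : Finset (I.Fiber w)) (ρ : ℕ) : Prop :=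
  ∀ i, I.Window w P i → (i + w ≤ I.mid w → i + w ≤ ρ) ∧ (I.mid w < i → ρ < i)

/-- The invariant of Duplicator. -/
def Valid (Θ : I.PVar w → ZMod 2) (P : Finset (I.Fiber w)) : Prop :=
  ∃ ρ : ℕ, ρ < I.pathLen w ∧ ¬ I.pin w P ρ ∧
    (∀ N : Fin (I.pathLen w), I.parity w (Sum.inl N) Θ =
      I.twist w 1 (Sum.inl N) + if N.val = ρ then 1 else 0) ∧ I.Good w P ρ

lemma two_eq_zero : (2 : ZMod 2) = 0 := by decide

lemma parity_add_two (p c : ZMod 2) : p + c + c = p := by
  have := two_eq_zero
  linear_combination c * this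

lemma move_lt (P : Finset (I.Fiber w)) (b : ℕ) (hb : b < I.pathLen w) (hbp : ¬ I.pin w P b) :
    ∀ d a, b = a + d → ¬ I.pin w P a → (∀ i, I.Window w P i → ¬ (a < i ∧ i + w ≤ b)) →
      ∀ Θ : I.PVar w → ZMod 2, ∃ Θ' : I.PVar w → ZMod 2,
        (∀ φ ∈ P, ∀ v, I.inFib w φ v → Θ' v = Θ v) ∧
        ∀ N : Fin (I.pathLen w), I.parity w (Sum.inl N) Θ' =
          I.parity w (Sum.inl N) Θ + (if N.val = a then 1 else 0) + (if N.val = b then 1 else 0) := by
  intro d
  induction d using Nat.strong_induction_on with
  | _ d ih =>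
    intro a hab hap hconn Θ
    rcases Nat.eq_zero_or_pos d with hd | hd
    · subst hd
      have : b = a := by omega
      subst this
      exact ⟨Θ, fun _ _ _ _ => rfl, fun N => (parity_add_two _ _).symm⟩
    · have hex : ∃ c, a < c ∧ ¬ I.pin w P c := ⟨b, by omega, hbp⟩
      have hc := Nat.find_spec hex
      have hcmin : ∀ e, e < Nat.find hex → ¬ (a < e ∧ ¬ I.pin w P e) := fun e he => Nat.find_min hex he
      set c := Nat.find hex with hcdef
      have hcb : c ≤ b := Nat.find_min' hex ⟨by omega, hbp⟩
      have hca : c ≤ a + w := by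
        by_contra hcon
        have hW : I.Window w P (a + 1) := by
          intro j hj
          have := hcmin (a + 1 + j) (by omega)
          by_contra hnp
          exact this ⟨by omega, hnp⟩
        exact hconn (a + 1) hW ⟨by omega, by omega⟩
      have hcL : c < I.pathLen w := by omega
      have haL : a < I.pathLen w := by omega
      let v0 : I.PVar w := Sum.inl (⟨a, haL⟩, ⟨c, hcL⟩)
      have hon : ∀ N : Fin (I.pathLen w), I.onNode w N v0 ↔ (N.val = a ∨ N.val = c) := by
        intro N
        simp only [onNode, v0]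
        have h1 : (⟨a, haL⟩ : Fin (I.pathLen w)) < ⟨c, hcL⟩ := by
          simp only [Fin.mk_lt_mk]; omega
        constructor
        · rintro ⟨-, -, h | h⟩
          · left; simp [h]
          · right; simp [h]
        · rintro (h | h)
          · exact ⟨h1, by simpa using hca, Or.inl (Fin.ext h)⟩
          · exact ⟨h1, by simpa using hca, Or.inr (Fin.ext h)⟩
      obtain ⟨Θ2, h2a, h2p⟩ := ih (b - c) (by omega) c (by omega) hc.2
        (fun i hi h => hconn i hi ⟨by omega, h.2⟩) (I.flipV w Θ v0)
      refine ⟨Θ2, ?_, ?_⟩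
      · intro φ hφ v hv
        rw [h2a φ hφ v hv]
        simp only [flipV]
        have : v ≠ v0 := by
          rintro rfl
          rcases φ with N | ⟨g, x⟩
          · have hN := (hon N).1 hv
            rcases hN with h | h
            · exact hap ⟨haL, by
                have : N = ⟨a, haL⟩ := Fin.ext h
                rwa [← this]⟩
            · exact hc.2 ⟨hcL, by
                have : N = ⟨c, hcL⟩ := Fin.ext h
                rwa [← this]⟩
          · exact hv
        simp [this]
      · intro N
        rw [h2p N, parity_flip]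
        have hac : a ≠ c := by omega
        by_cases h1 : N.val = a
        · have h3 : N.val ≠ c := by omega
          have h4 : I.onNode w N v0 := (hon N).2 (Or.inl h1)
          simp only [h1, if_true, h4, hac, if_false]
          ring
        · by_cases h3 : N.val = c
          · have h4 : I.onNode w N v0 := (hon N).2 (Or.inr h3)
            simp only [h3, if_true, h4, hac.symm, if_false]
            have := parity_add_two (I.parity w (Sum.inl N) Θ) 1
            linear_combination this
          · have h4 : ¬ I.onNode w N v0 := fun h => by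
              rcases (hon N).1 h with h | h <;> contradiction
            simp [h1, h3, h4]

lemma move (P : Finset (I.Fiber w)) (a b : ℕ) (ha : a < I.pathLen w) (hb : b < I.pathLen w)
    (hap : ¬ I.pin w P a) (hbp : ¬ I.pin w P b) (hconn : I.Conn w P a b)
    (Θ : I.PVar w → ZMod 2) : ∃ Θ' : I.PVar w → ZMod 2,
      (∀ φ ∈ P, ∀ v, I.inFib w φ v → Θ' v = Θ v) ∧
      ∀ N : Fin (I.pathLen w), I.parity w (Sum.inl N) Θ' =
        I.parity w (Sum.inl N) Θ + (if N.val = a then 1 else 0) + (if N.val = b then 1 else 0) := by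
  rcases le_total a b with hab | hab
  · exact I.move_lt w P b hb hbp (b - a) a (by omega) hap (fun i hi => (hconn i hi).1) Θ
  · obtain ⟨Θ', h1, h2⟩ := I.move_lt w P a ha hap (a - b) b (by omega) hbp
      (fun i hi => (hconn i hi).2) Θ
    exact ⟨Θ', h1, fun N => by rw [h2 N]; ring⟩

/-! Counting pins. -/

/-- The pinned nodes, as numbers. -/
noncomputable def Qn (P : Finset (I.Fiber w)) : Finset ℕ :=
  (Finset.univ.filter (fun N : Fin (I.pathLen w) => (Sum.inl N : I.Fiber w) ∈ P)).image Fin.val

lemma mem_Qn (P : Finset (I.Fiber w)) (n : ℕ) : n ∈ I.Qn w P ↔ I.pin w P n := by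
  simp only [Qn, Finset.mem_image, Finset.mem_filter, Finset.mem_univ, true_and, pin]
  constructor
  · rintro ⟨N, hN, rfl⟩; exact ⟨N.isLt, hN⟩
  · rintro ⟨h, hn⟩; exact ⟨⟨n, h⟩, hn, rfl⟩

/-- The pinned choices. -/
noncomputable def Fp (P : Finset (I.Fiber w)) : Finset (Σ g, I.A g) :=
  Finset.univ.filter (fun a => (Sum.inr a : I.Fiber w) ∈ P)

lemma card_parts (P : Finset (I.Fiber w)) : (I.Qn w P).card + (I.Fp w P).card ≤ P.card := by
  have h1 : (I.Qn w P).card ≤
      (Finset.univ.filter (fun N : Fin (I.pathLen w) => (Sum.inl N : I.Fiber w) ∈ P)).card :=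
    Finset.card_image_le
  let S1 := (Finset.univ.filter (fun N : Fin (I.pathLen w) => (Sum.inl N : I.Fiber w) ∈ P)).image
    (Sum.inl : _ → I.Fiber w)
  let S2 := (I.Fp w P).image (Sum.inr : _ → I.Fiber w)
  have hS1 : S1.card =
      (Finset.univ.filter (fun N : Fin (I.pathLen w) => (Sum.inl N : I.Fiber w) ∈ P)).card :=
    Finset.card_image_of_injective _ Sum.inl_injective
  have hS2 : S2.card = (I.Fp w P).card := Finset.card_image_of_injective _ Sum.inr_injective
  have hd : Disjoint S1 S2 := by
    rw [Finset.disjoint_left]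
    intro x hx hy
    simp only [S1, S2, Finset.mem_image] at hx hy
    obtain ⟨a, -, rfl⟩ := hx
    obtain ⟨b, -, hb⟩ := hy
    cases hb
  have hsub : S1 ∪ S2 ⊆ P := by
    intro x hx
    simp only [S1, S2, Finset.mem_union, Finset.mem_image, Finset.mem_filter, Finset.mem_univ,
      true_and, Fp] at hx
    rcases hx with ⟨a, ha, rfl⟩ | ⟨a, ha, rfl⟩ <;> exact ha
  have := Finset.card_le_card hsub
  rw [Finset.card_union_of_disjoint hd, hS1, hS2] at this
  omega

lemma window_sub {P : Finset (I.Fiber w)} {i : ℕ} (h : I.Window w P i) :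
    (Finset.range w).image (fun j => i + j) ⊆ I.Qn w P := by
  intro n hn
  simp only [Finset.mem_image, Finset.mem_range] at hn
  obtain ⟨j, hj, rfl⟩ := hn
  exact (I.mem_Qn w P _).2 (h j hj)

lemma card_range_image (i : ℕ) : ((Finset.range w).image (fun j => i + j)).card = w := by
  rw [Finset.card_image_of_injective _ (fun a b h => by simpa using h), Finset.card_range]

lemma two_windows {P : Finset (I.Fiber w)} {i j : ℕ} (hi : I.Window w P i) (hj : I.Window w P j)
    (hij : i + w ≤ j) (hP : P.card ≤ I.k + w + 1) (hw : I.k + 2 ≤ w) : False := by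
  have hd : Disjoint ((Finset.range w).image (fun n => i + n))
      ((Finset.range w).image (fun n => j + n)) := by
    rw [Finset.disjoint_left]
    intro x hx hy
    simp only [Finset.mem_image, Finset.mem_range] at hx hy
    obtain ⟨a, ha, rfl⟩ := hx
    obtain ⟨b, hb, hb'⟩ := hy
    omega
  have h1 := Finset.card_le_card (Finset.union_subset (I.window_sub w hi) (I.window_sub w hj))
  rw [Finset.card_union_of_disjoint hd, card_range_image w, card_range_image w] at h1
  have h2 := I.card_parts w P
  omega

lemma idx_lt (x : I.Ext) : I.idx x < I.numExt := (Fintype.equivFin I.Ext x).isLt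

lemma idx_inj {x y : I.Ext} (h : I.idx x = I.idx y) : x = y :=
  (Fintype.equivFin I.Ext).injective (Fin.ext h)

lemma occ1_lt (x : I.Ext) : I.occ1 w x + I.gap w ≤ I.mid w := by
  have := I.idx_lt x
  simp only [occ1, mid]
  omega

lemma occ2_ge (x : I.Ext) : I.mid w + I.gap w < I.occ2 w x := by
  simp only [occ2]
  omega

lemma occ1_ltL (x : I.Ext) : I.occ1 w x < I.pathLen w := by
  have := I.occ1_lt w x
  simp only [pathLen]
  unfold gap at *
  omega

lemma occ2_ltL (x : I.Ext) : I.occ2 w x < I.pathLen w := by
  have := I.idx_lt x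
  simp only [pathLen, occ2]
  unfold gap at *
  omega

/-- If the instance is not solvable, a position with a window through the middle leaves some
extra variable free. -/
lemma exists_free (hU : ¬ I.Solvable) (hw : I.k + 2 ≤ w) {P : Finset (I.Fiber w)}
    (hP : P.card ≤ I.k + w) {i : ℕ} (hi : I.Window w P i) (him : i ≤ I.mid w)
    (hmi : I.mid w < i + w) : ∃ x : I.Ext, ∀ φ ∈ P, ¬ I.inFib w φ (Sum.inr x) := by
  set W := (Finset.range w).image (fun j => i + j) with hW
  have hWsub : W ⊆ I.Qn w P := I.window_sub w hi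
  have hWcard : W.card = w := card_range_image w i
  set R := I.Qn w P \ W with hR
  have hRcard : R.card + w = (I.Qn w P).card := by
    rw [hR, Finset.card_sdiff_of_subset hWsub, hWcard]
    have := Finset.card_le_card hWsub
    omega
  have hparts := I.card_parts w P
  have hcount : R.card + (I.Fp w P).card ≤ I.k := by omega
  have hgap : I.gap w = I.k + w + 2 := rfl
  have hnotW1 : ∀ x : I.Ext, I.occ1 w x ∉ W := by
    intro x hx
    simp only [hW, Finset.mem_image, Finset.mem_range] at hx
    obtain ⟨j, hj, hje⟩ := hx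
    have := I.occ1_lt w x
    omega
  have hnotW2 : ∀ x : I.Ext, I.occ2 w x ∉ W := by
    intro x hx
    simp only [hW, Finset.mem_image, Finset.mem_range] at hx
    obtain ⟨j, hj, hje⟩ := hx
    have := I.occ2_ge w x
    omega
  have hR1 : ∀ x : I.Ext, I.pin w P (I.occ1 w x) → I.occ1 w x ∈ R := fun x h =>
    Finset.mem_sdiff.2 ⟨(I.mem_Qn w P _).2 h, hnotW1 x⟩
  have hR2 : ∀ x : I.Ext, I.pin w P (I.occ2 w x) → I.occ2 w x ∈ R := fun x h =>
    Finset.mem_sdiff.2 ⟨(I.mem_Qn w P _).2 h, hnotW2 x⟩
  by_cases hall : ∀ g, ∃ a, (Sum.inr ⟨g, a⟩ : I.Fiber w) ∈ P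
  · choose a ha using hall
    have hnot : ¬ ∀ C : I.Cl, ∃ g, I.Sat g (a g) C := fun h => hU ⟨a, h⟩
    push Not at hnot
    obtain ⟨C, hC⟩ := hnot
    have himg : (Finset.univ.image (fun g => (⟨g, a g⟩ : Σ g, I.A g))) ⊆ I.Fp w P := by
      intro z hz
      simp only [Finset.mem_image, Finset.mem_univ, true_and] at hz
      obtain ⟨g, rfl⟩ := hz
      simp only [Fp, Finset.mem_filter, Finset.mem_univ, true_and]
      exact ha g
    have hicard : (Finset.univ.image (fun g => (⟨g, a g⟩ : Σ g, I.A g))).card = I.k := by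
      rw [Finset.card_image_of_injective]
      · simp
      · intro g g' h
        exact (Sigma.mk.inj_iff.1 h).1
    have hFk := Finset.card_le_card himg
    rw [hicard] at hFk
    have hR0 : R.card = 0 := by omega
    have hFeq : Finset.univ.image (fun g => (⟨g, a g⟩ : Σ g, I.A g)) = I.Fp w P :=
      Finset.eq_of_subset_of_card_le himg (by omega)
    refine ⟨Sum.inr C, fun φ hφ hin => ?_⟩
    rcases φ with N | z
    · have hN : N.val = I.occ1 w (Sum.inr C) ∨ N.val = I.occ2 w (Sum.inr C) := hin
      have hpin : I.pin w P N.val := ⟨N.isLt, by simpa using hφ⟩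
      rcases hN with hN | hN
      · have := hR1 (Sum.inr C) (hN ▸ hpin)
        rw [Finset.card_eq_zero] at hR0
        rw [hR0] at this
        simp at this
      · have := hR2 (Sum.inr C) (hN ▸ hpin)
        rw [Finset.card_eq_zero] at hR0
        rw [hR0] at this
        simp at this
    · have hz : z ∈ I.Fp w P := by
        simp only [Fp, Finset.mem_filter, Finset.mem_univ, true_and]; exact hφ
      rw [← hFeq] at hz
      simp only [Finset.mem_image, Finset.mem_univ, true_and] at hz
      obtain ⟨g, rfl⟩ := hz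
      exact hC g hin
  · push Not at hall
    obtain ⟨g, hg⟩ := hall
    by_cases hj : ∃ j : Fin (I.k + 1), ¬ I.pin w P (I.occ1 w (Sum.inl (g, j))) ∧
        ¬ I.pin w P (I.occ2 w (Sum.inl (g, j)))
    · obtain ⟨j, hj1, hj2⟩ := hj
      refine ⟨Sum.inl (g, j), fun φ hφ hin => ?_⟩
      rcases φ with N | ⟨g', a⟩
      · have hN : N.val = I.occ1 w (Sum.inl (g, j)) ∨ N.val = I.occ2 w (Sum.inl (g, j)) := hin
        have hpin : I.pin w P N.val := ⟨N.isLt, by simpa using hφ⟩
        rcases hN with hN | hN
        · exact hj1 (hN ▸ hpin)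
        · exact hj2 (hN ▸ hpin)
      · have hgg : g = g' := hin
        subst hgg
        exact hg a hφ
    · exfalso
      push Not at hj
      let f : Fin (I.k + 1) → ℕ := fun j =>
        if I.pin w P (I.occ1 w (Sum.inl (g, j))) then I.occ1 w (Sum.inl (g, j))
        else I.occ2 w (Sum.inl (g, j))
      have hfR : ∀ j, f j ∈ R := by
        intro j
        simp only [f]
        split_ifs with h1
        · exact hR1 _ h1
        · exact hR2 _ (hj j h1)
      have hfinj : Function.Injective f := by
        intro j j' h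
        simp only [f] at h
        have hb : ∀ x y : I.Ext, I.occ1 w x ≠ I.occ2 w y := by
          intro x y he
          have h1 := I.occ1_lt w x
          have h2 := I.occ2_ge w y
          omega
        have h1 : ∀ x y : I.Ext, I.occ1 w x = I.occ1 w y → x = y := by
          intro x y he
          simp only [occ1] at he
          exact I.idx_inj (by omega)
        have h2 : ∀ x y : I.Ext, I.occ2 w x = I.occ2 w y → x = y := by
          intro x y he
          simp only [occ2] at he
          exact I.idx_inj (by omega)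
        have hfin : (Sum.inl (g, j) : I.Ext) = Sum.inl (g, j') := by
          split_ifs at h with c1 c2 c2
          · exact h1 _ _ h
          · exact absurd h (hb _ _)
          · exact absurd h.symm (hb _ _)
          · exact h2 _ _ h
        simpa using hfin
      have hcard : Fintype.card (Fin (I.k + 1)) ≤ R.card := by
        have := Finset.card_le_card_of_injOn f (s := Finset.univ) (t := R)
          (fun j _ => hfR j) (fun a _ b _ h => hfinj h)
        simpa using this
      simp only [Fintype.card_fin] at hcard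
      omega

/-- A robber on one side of a window through the middle may jump to the other side by flipping a
free extra variable. -/
lemma jump (hw : I.k + 2 ≤ w) {P : Finset (I.Fiber w)} (hP : P.card ≤ I.k + w + 1) {i : ℕ}
    (hi : I.Window w P i) (him : i ≤ I.mid w) (hmi : I.mid w < i + w)
    {x : I.Ext} (hx : ∀ φ ∈ P, ¬ I.inFib w φ (Sum.inr x))
    {ρ τ : ℕ} (hρL : ρ < I.pathLen w) (hτL : τ < I.pathLen w)
    (hρ : ¬ I.pin w P ρ) (hτ : ¬ I.pin w P τ) (hρi : ρ < i) (hτi : i + w ≤ τ)
    (Θ : I.PVar w → ZMod 2) : ∃ Θ' : I.PVar w → ZMod 2,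
      (∀ φ ∈ P, ∀ v, I.inFib w φ v → Θ' v = Θ v) ∧
      ∀ N : Fin (I.pathLen w), I.parity w (Sum.inl N) Θ' =
        I.parity w (Sum.inl N) Θ + (if N.val = ρ then 1 else 0) + (if N.val = τ then 1 else 0) := by
  have hoverlap : ∀ j, I.Window w P j → j < i + w ∧ i < j + w := by
    intro j hj
    constructor
    · by_contra h
      exact I.two_windows w hi hj (by omega) hP hw
    · by_contra h
      exact I.two_windows w hj hi (by omega) hP hw
  have hgap : I.gap w = I.k + w + 2 := rfl
  have h1 := I.occ1_lt w x
  have h2 := I.occ2_ge w x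
  have hp1 : ¬ I.pin w P (I.occ1 w x) := by
    rintro ⟨h, hm⟩
    exact hx _ hm (Or.inl rfl)
  have hp2 : ¬ I.pin w P (I.occ2 w x) := by
    rintro ⟨h, hm⟩
    exact hx _ hm (Or.inr rfl)
  obtain ⟨Θ1, a1, p1⟩ := I.move w P ρ (I.occ1 w x) hρL (I.occ1_ltL w x) hρ hp1
    (fun j hj => by
      have := hoverlap j hj
      exact ⟨fun h => by omega, fun h => by omega⟩) (I.flipV w Θ (Sum.inr x))
  obtain ⟨Θ2, a2, p2⟩ := I.move w P (I.occ2 w x) τ (I.occ2_ltL w x) hτL hp2 hτ
    (fun j hj => by
      have := hoverlap j hj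
      exact ⟨fun h => by omega, fun h => by omega⟩) Θ1
  refine ⟨Θ2, ?_, ?_⟩
  · intro φ hφ v hv
    rw [a2 φ hφ v hv, a1 φ hφ v hv]
    simp only [flipV]
    have : v ≠ Sum.inr x := by
      rintro rfl
      exact hx φ hφ hv
    simp [this]
  · intro N
    rw [p2 N, p1 N, parity_flip]
    have hon : I.onNode w N (Sum.inr x) ↔ (N.val = I.occ1 w x ∨ N.val = I.occ2 w x) := Iff.rfl
    have hne : I.occ1 w x ≠ I.occ2 w x := by omega
    have hs : (if I.onNode w N (Sum.inr x) then (1 : ZMod 2) else 0) =
        (if N.val = I.occ1 w x then 1 else 0) + (if N.val = I.occ2 w x then 1 else 0) := by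
      by_cases c1 : N.val = I.occ1 w x
      · have c2 : N.val ≠ I.occ2 w x := by omega
        simp [hon, c1, hne]
      · by_cases c2 : N.val = I.occ2 w x
        · simp [hon, c2, hne.symm]
        · simp [hon, c1, c2]
    rw [hs]
    have h2z := two_eq_zero
    linear_combination ((if N.val = I.occ1 w x then (1 : ZMod 2) else 0) +
      (if N.val = I.occ2 w x then 1 else 0)) * h2z

/-- A pin-free node close to the left end, and one close to the right end. -/
lemma exists_left_free {P : Finset (I.Fiber w)} (hP : P.card ≤ I.k + w + 1) :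
    ∃ τ, τ < I.gap w ∧ ¬ I.pin w P τ := by
  by_contra h
  push Not at h
  have hsub : Finset.range (I.gap w) ⊆ I.Qn w P := by
    intro n hn
    exact (I.mem_Qn w P n).2 (h n (Finset.mem_range.1 hn))
  have h1 := Finset.card_le_card hsub
  rw [Finset.card_range] at h1
  have h2 := I.card_parts w P
  have hgap : I.gap w = I.k + w + 2 := rfl
  omega

lemma exists_right_free {P : Finset (I.Fiber w)} (hP : P.card ≤ I.k + w + 1) :
    ∃ τ, I.mid w + I.gap w < τ ∧ τ < I.pathLen w ∧ ¬ I.pin w P τ := by
  by_contra h
  push Not at h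
  have hL : I.pathLen w = I.mid w + 2 * I.gap w + 1 + I.numExt := rfl
  have hgap : I.gap w = I.k + w + 2 := rfl
  have hsub : (Finset.range (I.gap w)).image (fun j => I.mid w + I.gap w + 1 + j) ⊆ I.Qn w P := by
    intro n hn
    simp only [Finset.mem_image, Finset.mem_range] at hn
    obtain ⟨j, hj, rfl⟩ := hn
    exact (I.mem_Qn w P _).2 (h _ (by omega) (by omega))
  have h1 := Finset.card_le_card hsub
  rw [Finset.card_image_of_injective _ (fun a b h => by simpa using h), Finset.card_range] at h1
  have h2 := I.card_parts w P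
  omega

lemma pin_insert_inl (P : Finset (I.Fiber w)) (N : Fin (I.pathLen w)) (n : ℕ) :
    I.pin w (insert (Sum.inl N) P) n ↔ (I.pin w P n ∨ n = N.val) := by
  constructor
  · rintro ⟨h, hm⟩
    rcases Finset.mem_insert.1 hm with he | hm
    · right
      have := Sum.inl_injective he
      simpa using congrArg Fin.val this
    · exact Or.inl ⟨h, hm⟩
  · rintro (⟨h, hm⟩ | rfl)
    · exact ⟨h, Finset.mem_insert_of_mem hm⟩
    · exact ⟨N.isLt, Finset.mem_insert_self _ _⟩

lemma pin_insert_inr (P : Finset (I.Fiber w)) (z : Σ g, I.A g) (n : ℕ) :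
    I.pin w (insert (Sum.inr z) P) n ↔ I.pin w P n := by
  constructor
  · rintro ⟨h, hm⟩
    rcases Finset.mem_insert.1 hm with he | hm
    · cases he
    · exact ⟨h, hm⟩
  · rintro ⟨h, hm⟩
    exact ⟨h, Finset.mem_insert_of_mem hm⟩

lemma Window.mono {P P' : Finset (I.Fiber w)} (hsub : P ⊆ P') {i : ℕ}
    (h : I.Window w P i) : I.Window w P' i := by
  intro j hj
  obtain ⟨h1, h2⟩ := h j hj
  exact ⟨h1, hsub h2⟩

lemma Valid.mono {Θ : I.PVar w → ZMod 2} {P P' : Finset (I.Fiber w)} (hsub : P' ⊆ P)
    (h : I.Valid w Θ P) : I.Valid w Θ P' := by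
  obtain ⟨ρ, h1, h2, h3, h4⟩ := h
  refine ⟨ρ, h1, ?_, h3, ?_⟩
  · rintro ⟨a, b⟩
    exact h2 ⟨a, hsub b⟩
  · intro i hi
    exact h4 i (Window.mono I w hsub hi)

/-- Finish a step of Duplicator: the robber has been moved from `ρ` to `τ`. -/
lemma valid_of_move {Θ Θ' : I.PVar w → ZMod 2} {P' : Finset (I.Fiber w)} {ρ τ : ℕ}
    (hτL : τ < I.pathLen w) (hτ : ¬ I.pin w P' τ) (hG : I.Good w P' τ)
    (hρ : ∀ N : Fin (I.pathLen w), I.parity w (Sum.inl N) Θ =
      I.twist w 1 (Sum.inl N) + if N.val = ρ then 1 else 0)
    (hp : ∀ N : Fin (I.pathLen w), I.parity w (Sum.inl N) Θ' =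
        I.parity w (Sum.inl N) Θ + (if N.val = ρ then 1 else 0) + (if N.val = τ then 1 else 0)) :
    I.Valid w Θ' P' := by
  refine ⟨τ, hτL, hτ, fun N => ?_, hG⟩
  rw [hp N, hρ N]
  have h2z := two_eq_zero
  linear_combination (if N.val = ρ then (1 : ZMod 2) else 0) * h2z

/-- Duplicator can answer a new pin, if the instance is not solvable. -/
lemma extend (hU : ¬ I.Solvable) (hw : I.k + 2 ≤ w) {P : Finset (I.Fiber w)}
    (hP : P.card ≤ I.k + w) {Θ : I.PVar w → ZMod 2} (hV : I.Valid w Θ P) (φ : I.Fiber w) :
    ∃ Θ', I.Valid w Θ' (insert φ P) ∧ ∀ φ' ∈ P, ∀ v, I.inFib w φ' v → Θ' v = Θ v := by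
  obtain ⟨ρ, hρL, hρp, hρpar, hρG⟩ := hV
  rcases φ with N | z
  · set P' := insert (Sum.inl N : I.Fiber w) P with hP'
    have hsub : P ⊆ P' := Finset.subset_insert _ _
    have hP'card : P'.card ≤ I.k + w + 1 := by
      have := Finset.card_insert_le (Sum.inl N : I.Fiber w) P
      rw [← hP'] at this
      omega
    have hgap : I.gap w = I.k + w + 2 := rfl
    have hL : I.pathLen w = I.mid w + 2 * I.gap w + 1 + I.numExt := rfl
    have hM : I.mid w = 2 * I.gap w + I.numExt := rfl
    obtain ⟨τl, hτl, hτlp⟩ := I.exists_left_free w hP'card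
    obtain ⟨τr, hτr, hτrL, hτrp⟩ := I.exists_right_free w hP'card
    have hτlL : τl < I.pathLen w := by omega
    have hunp : ∀ n, ¬ I.pin w P' n → ¬ I.pin w P n := fun n h h' =>
      h ((I.pin_insert_inl w P N n).2 (Or.inl h'))
    by_cases hLw : ∃ i, I.Window w P' i ∧ i + w ≤ I.mid w
    · -- a window left of the middle: the robber has to go right
      obtain ⟨i0, hi0, hi0m⟩ := hLw
      have hG : I.Good w P' τr := by
        intro i hi
        refine ⟨fun _ => by omega, fun hm => ?_⟩
        exact absurd (I.two_windows w hi0 hi (by omega) hP'card hw) id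
      by_cases hc : I.Conn w P ρ τr
      · obtain ⟨Θ', h1, h2⟩ := I.move w P ρ τr hρL hτrL hρp (hunp _ hτrp) hc Θ
        exact ⟨Θ', I.valid_of_move w hτrL hτrp hG hρpar h2, h1⟩
      · unfold Conn at hc
        push Not at hc
        obtain ⟨i, hi, hc⟩ := hc
        by_cases hc1 : ρ < i ∧ i + w ≤ τr
        · have h1 : ¬ i + w ≤ I.mid w := fun h => by
            have := (hρG i hi).1 h
            omega
          have h2 : i ≤ I.mid w := by
            by_contra h
            exact I.two_windows w hi0 (Window.mono I w hsub hi) (by omega) hP'card hw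
          obtain ⟨x, hx⟩ := I.exists_free w hU hw hP hi h2 (by omega)
          obtain ⟨Θ', a1, a2⟩ := I.jump w hw (by omega) hi h2 (by omega) hx hρL hτrL hρp
            (hunp _ hτrp) hc1.1 hc1.2 Θ
          exact ⟨Θ', I.valid_of_move w hτrL hτrp hG hρpar a2, a1⟩
        · have hc2 := hc (fun a => by
            by_contra hh
            exact hc1 ⟨a, by omega⟩)
          exfalso
          exact I.two_windows w hi0 (Window.mono I w hsub hi) (by omega) hP'card hw
    · by_cases hRw : ∃ i, I.Window w P' i ∧ I.mid w < i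
      · -- a window right of the middle: the robber has to go left
        obtain ⟨i0, hi0, hi0m⟩ := hRw
        have hG : I.Good w P' τl := by
          intro i hi
          refine ⟨fun hm => ?_, fun _ => by omega⟩
          exact absurd (I.two_windows w hi hi0 (by omega) hP'card hw) id
        by_cases hc : I.Conn w P ρ τl
        · obtain ⟨Θ', h1, h2⟩ := I.move w P ρ τl hρL hτlL hρp (hunp _ hτlp) hc Θ
          exact ⟨Θ', I.valid_of_move w hτlL hτlp hG hρpar h2, h1⟩
        · unfold Conn at hc
          push Not at hc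
          obtain ⟨i, hi, hc⟩ := hc
          by_cases hc1 : ρ < i ∧ i + w ≤ τl
          · exfalso
            exact I.two_windows w (Window.mono I w hsub hi) hi0 (by omega) hP'card hw
          · have hc2 := hc (fun a => by
              by_contra hh
              exact hc1 ⟨a, by omega⟩)
            have h1 : ¬ I.mid w < i := fun h => by
              have := (hρG i hi).2 h
              omega
            have h2 : ¬ i + w ≤ I.mid w := fun h =>
              I.two_windows w (Window.mono I w hsub hi) hi0 (by omega) hP'card hw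
            obtain ⟨x, hx⟩ := I.exists_free w hU hw hP hi (by omega) (by omega)
            obtain ⟨Θ', a1, a2⟩ := I.jump w hw (by omega) hi (by omega) (by omega) hx hτlL hρL
              (hunp _ hτlp) hρp hc2.1 hc2.2 Θ
            refine ⟨Θ', I.valid_of_move w hτlL hτlp hG hρpar (fun M => ?_), a1⟩
            rw [a2 M]
            ring
      · -- only windows through the middle: the robber stays, unless it is hit
        push Not at hLw hRw
        have hG : ∀ τ, I.Good w P' τ := by
          intro τ i hi
          have h1 := hLw i hi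
          have h2 := hRw i hi
          exact ⟨fun h => by omega, fun h => by omega⟩
        by_cases hN : ρ = N.val
        · by_cases hNM : N.val ≤ I.mid w
          · have hc : I.Conn w P ρ τl := by
              intro i hi
              have h1 := hLw i (Window.mono I w hsub hi)
              exact ⟨fun h => by omega, fun h => by omega⟩
            obtain ⟨Θ', h1, h2⟩ := I.move w P ρ τl hρL hτlL hρp (hunp _ hτlp) hc Θ
            exact ⟨Θ', I.valid_of_move w hτlL hτlp (hG _) hρpar h2, h1⟩
          · have hc : I.Conn w P ρ τr := by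
              intro i hi
              have h1 := hRw i (Window.mono I w hsub hi)
              exact ⟨fun h => by omega, fun h => by omega⟩
            obtain ⟨Θ', h1, h2⟩ := I.move w P ρ τr hρL hτrL hρp (hunp _ hτrp) hc Θ
            exact ⟨Θ', I.valid_of_move w hτrL hτrp (hG _) hρpar h2, h1⟩
        · refine ⟨Θ, ⟨ρ, hρL, ?_, hρpar, hG ρ⟩, fun _ _ _ _ => rfl⟩
          intro h
          rcases (I.pin_insert_inl w P N ρ).1 h with h | h
          · exact hρp h
          · exact hN h
  · refine ⟨Θ, ⟨ρ, hρL, ?_, hρpar, ?_⟩, fun _ _ _ _ => rfl⟩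
    · intro h
      exact hρp ((I.pin_insert_inr w P z ρ).1 h)
    · intro i hi
      refine hρG i (fun j hj => (I.pin_insert_inr w P z _).1 (hi j hj))

end Cov

end

end Vale.Agent.Lib.P310
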