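import Vale.Agent.Lib.P310.Dup

namespace Vale.Agent.Lib.P310

open scoped Classical
open Finset

noncomputable section

namespace Cov

variable (I : Cov) (w : ℕ)

/-- The fiber of a vertex (a leaf lies in the fiber of its parent). -/
def fibOf {b : ZMod 2} : I.Vtx w b → I.Fiber w
  | Sum.inl u => u.fib
  | Sum.inr l => l.1.fib

/-- `u'` is `u` shifted by `Θ`. -/
def RelB (Θ : I.PVar w → ZMod 2) (u : I.Vx w 0) (u' : I.Vx w 1) : Prop :=
  u'.fib = u.fib ∧ ∀ v, I.inFib w u.fib v → u'.a v = u.a v + Θ v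

/-- The shift relation on all vertices. -/
def Rel (Θ : I.PVar w → ZMod 2) : I.Vtx w 0 → I.Vtx w 1 → Prop
  | Sum.inl u, Sum.inl u' => I.RelB w Θ u u'
  | Sum.inr l, Sum.inr l' => I.RelB w Θ l.1 l'.1 ∧ l.2.val = l'.2.val
  | _, _ => False

variable {I w}

lemma RelB.eq_iff {Θ : I.PVar w → ZMod 2} {u y : I.Vx w 0} {u' y' : I.Vx w 1}
    (h1 : I.RelB w Θ u u') (h2 : I.RelB w Θ y y') : u = y ↔ u' = y' := by
  constructor
  · rintro rfl
    apply Vx.ext
    · rw [h1.1, h2.1]
    · funext v
      by_cases hv : I.inFib w u.fib v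
      · rw [h1.2 v hv, h2.2 v hv]
      · rw [u'.supp v (by rwa [h1.1]), y'.supp v (by rwa [h2.1])]
  · rintro rfl
    have hf : u.fib = y.fib := h1.1.symm.trans h2.1
    apply Vx.ext hf
    funext v
    by_cases hv : I.inFib w u.fib v
    · have e1 := h1.2 v hv
      have e2 := h2.2 v (by rwa [← hf])
      rw [e1] at e2
      exact add_right_cancel e2
    · rw [u.supp v hv, y.supp v (by rwa [← hf])]

lemma leaf_eq {b : ZMod 2} {l l' : Σ u : I.Vx w b, Fin (I.mult w u.fib)} (h1 : l.1 = l'.1)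
    (h2 : l.2.val = l'.2.val) : l = l' := by
  obtain ⟨u, n⟩ := l
  obtain ⟨u', n'⟩ := l'
  simp only at h1 h2
  subst h1
  have : n = n' := Fin.ext h2
  rw [this]

lemma Rel.eq_iff {Θ : I.PVar w → ZMod 2} {x y : I.Vtx w 0} {x' y' : I.Vtx w 1}
    (h1 : I.Rel w Θ x x') (h2 : I.Rel w Θ y y') : x = y ↔ x' = y' := by
  rcases x with u | l <;> rcases x' with u' | l' <;> rcases y with v | m <;>
    rcases y' with v' | m' <;> simp only [Rel] at h1 h2
  · have := RelB.eq_iff h1 h2
    simpa using this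
  · simp
  · simp
  · constructor
    · intro h
      have h' := Sum.inr_injective h
      subst h'
      congr 1
      apply leaf_eq
      · exact (RelB.eq_iff h1.1 h2.1).1 rfl
      · rw [← h1.2, ← h2.2]
    · intro h
      have h' := Sum.inr_injective h
      subst h'
      congr 1
      apply leaf_eq
      · exact (RelB.eq_iff h1.1 h2.1).2 rfl
      · rw [h1.2, h2.2]

lemma Rel.adj_iff {Θ : I.PVar w → ZMod 2} {x y : I.Vtx w 0} {x' y' : I.Vtx w 1}
    (h1 : I.Rel w Θ x x') (h2 : I.Rel w Θ y y') : (I.Gr w 0).Adj x y ↔ (I.Gr w 1).Adj x' y' := by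
  rcases x with u | l <;> rcases x' with u' | l' <;> rcases y with v | m <;>
    rcases y' with v' | m' <;> simp only [Rel] at h1 h2
  · change I.baseAdj w u v ↔ I.baseAdj w u' v'
    unfold baseAdj
    rw [h1.1, h2.1]
    apply and_congr_right
    intro _
    apply forall_congr'
    intro z
    apply forall_congr'
    intro hz1
    apply forall_congr'
    intro hz2
    rw [h1.2 z hz1, h2.2 z hz2]
    exact (add_left_inj _).symm
  · change m.1 = u ↔ m'.1 = u'
    rw [RelB.eq_iff h2.1 h1]
  · change l.1 = v ↔ l'.1 = v'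
    rw [RelB.eq_iff h1.1 h2]
  · exact Iff.rfl

lemma Rel.fib_eq {Θ : I.PVar w → ZMod 2} {x : I.Vtx w 0} {x' : I.Vtx w 1}
    (h : I.Rel w Θ x x') : I.fibOf w x' = I.fibOf w x := by
  rcases x with u | l <;> rcases x' with u' | l' <;> simp only [Rel] at h
  · exact h.1
  · exact h.1.1

lemma Rel.congr {Θ Θ' : I.PVar w → ZMod 2} {x : I.Vtx w 0} {x' : I.Vtx w 1}
    (h : I.Rel w Θ x x') (hag : ∀ v, I.inFib w (I.fibOf w x) v → Θ' v = Θ v) :
    I.Rel w Θ' x x' := by
  rcases x with u | l <;> rcases x' with u' | l' <;> simp only [Rel] at h ⊢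
  · exact ⟨h.1, fun v hv => by rw [h.2 v hv, hag v hv]⟩
  · exact ⟨⟨h.1.1, fun v hv => by rw [h.1.2 v hv, hag v hv]⟩, h.2⟩

lemma parity_add (N : Fin (I.pathLen w)) (a b : I.PVar w → ZMod 2) :
    I.parity w (Sum.inl N) (fun v => a v + b v) =
      I.parity w (Sum.inl N) a + I.parity w (Sum.inl N) b := by
  simp only [parity]
  rw [← Finset.sum_add_distrib]
  apply Finset.sum_congr rfl
  intro v _
  split_ifs <;> simp

lemma parity_congr (N : Fin (I.pathLen w)) {a b : I.PVar w → ZMod 2}
    (h : ∀ v, I.onNode w N v → a v = b v) :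
    I.parity w (Sum.inl N) a = I.parity w (Sum.inl N) b := by
  simp only [parity]
  apply Finset.sum_congr rfl
  intro v _
  split_ifs with hv
  · exact h v hv
  · rfl

lemma twist_zero (φ : I.Fiber w) : I.twist w 0 φ = 0 := by
  rcases φ with N | z
  · simp [twist]
  · rfl

/-- A base vertex can be shifted if its parity is matched. -/
lemma exists_shiftB (Θ : I.PVar w → ZMod 2) (u : I.Vx w 0)
    (hpar : I.parity w u.fib Θ = I.twist w 1 u.fib) : ∃ u' : I.Vx w 1, I.RelB w Θ u u' := by
  refine ⟨⟨u.fib, fun v => if I.inFib w u.fib v then u.a v + Θ v else 0, ?_, ?_⟩, rfl, ?_⟩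
  · intro v hv
    simp [hv]
  · rcases hf : u.fib with N | z
    · have h0 := u.par
      have h1 := hpar
      rw [hf] at h0 h1
      rw [twist_zero] at h0
      have e : I.parity w (Sum.inl N) (fun v => if I.inFib w (Sum.inl N) v then u.a v + Θ v else 0) =
          I.parity w (Sum.inl N) (fun v => u.a v + Θ v) := by
        apply parity_congr
        intro v hv
        have : I.inFib w (Sum.inl N) v := hv
        simp [this]
      rw [e, parity_add, h0, h1, zero_add]
    · rfl
  · intro v hv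
    simp [hv]

lemma exists_shift (Θ : I.PVar w → ZMod 2) (x : I.Vtx w 0)
    (hpar : I.parity w (I.fibOf w x) Θ = I.twist w 1 (I.fibOf w x)) :
    ∃ x' : I.Vtx w 1, I.Rel w Θ x x' := by
  rcases x with u | ⟨u, n⟩
  · obtain ⟨u', hu'⟩ := exists_shiftB Θ u hpar
    exact ⟨Sum.inl u', hu'⟩
  · obtain ⟨u', hu'⟩ := exists_shiftB Θ u hpar
    have hm : I.mult w u.fib = I.mult w u'.fib := by rw [hu'.1]
    exact ⟨Sum.inr ⟨u', ⟨n.val, hm ▸ n.isLt⟩⟩, hu', rfl⟩

/-- The parity condition holds on pinned fibers. -/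
lemma Valid.parity_pinned {Θ : I.PVar w → ZMod 2} {P : Finset (I.Fiber w)}
    (h : I.Valid w Θ P) {φ : I.Fiber w} (hφ : φ ∈ P) :
    I.parity w φ Θ = I.twist w 1 φ := by
  obtain ⟨ρ, -, hρ, hp, -⟩ := h
  rcases φ with N | z
  · have hne : N.val ≠ ρ := by
      rintro rfl
      exact hρ ⟨N.isLt, hφ⟩
    rw [hp N]
    simp [hne]
  · rfl

lemma pathLen_gt : 1 < I.pathLen w := by
  have : I.pathLen w = I.mid w + 2 * I.gap w + 1 + I.numExt := rfl
  have h2 : I.gap w = I.k + w + 2 := rfl
  omega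

variable (I w) in
/-- The edge between the nodes `0` and `1`. -/
def edge01 : I.PVar w :=
  Sum.inl (⟨0, lt_trans Nat.zero_lt_one (pathLen_gt (I := I) (w := w))⟩, ⟨1, pathLen_gt⟩)

variable (I w) in
/-- The correction used to flip the parity at node `0`. -/
def flipTerm (φ : I.Fiber w) (v : I.PVar w) : ZMod 2 :=
  if (∃ N : Fin (I.pathLen w), φ = Sum.inl N ∧ N.val = 0) ∧ v = I.edge01 w then 1 else 0

lemma onNode_edge01 (hw : 1 ≤ w) (N : Fin (I.pathLen w)) (hN : N.val = 0) :
    I.onNode w N (I.edge01 w) := by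
  refine ⟨?_, ?_, Or.inl (Fin.ext hN)⟩
  · simp [Fin.lt_def]
  · simpa using hw

/-- Flip the parity of the fiber of node `0`. -/
def flipVx (hw : 1 ≤ w) {b b' : ZMod 2} (hb : b' = b + 1) (u : I.Vx w b) : I.Vx w b' :=
  ⟨u.fib, fun v => u.a v + I.flipTerm w u.fib v,
    by
      intro v hv
      rw [u.supp v hv]
      have : ¬ ((∃ N : Fin (I.pathLen w), u.fib = Sum.inl N ∧ N.val = 0) ∧ v = I.edge01 w) := by
        rintro ⟨⟨N, hf, hN⟩, rfl⟩
        apply hv
        rw [hf]
        exact onNode_edge01 hw N hN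
      simp [flipTerm, this],
    by
      have hpar := u.par
      rcases hf : u.fib with N | z
      · rw [hf] at hpar
        by_cases hN : N.val = 0
        · have e : (fun v => u.a v + I.flipTerm w (Sum.inl N) v) = I.flipV w u.a (I.edge01 w) := by
            funext v
            simp [flipV, flipTerm, hN]
          rw [e, parity_flip, hpar]
          simp [twist, hN, onNode_edge01 hw N hN, hb]
        · have e : (fun v => u.a v + I.flipTerm w (Sum.inl N) v) = u.a := by
            funext v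
            simp [flipTerm, hN]
          rw [e, hpar]
          simp [twist, hN]
      · rfl⟩

lemma flipVx_fib (hw : 1 ≤ w) {b b' : ZMod 2} (hb : b' = b + 1) (u : I.Vx w b) :
    (flipVx hw hb u).fib = u.fib := rfl

lemma flipVx_flipVx (hw : 1 ≤ w) {b b' : ZMod 2} (hb : b' = b + 1) (hb' : b = b' + 1)
    (u : I.Vx w b) : flipVx hw hb' (flipVx hw hb u) = u := by
  apply Vx.ext
  · rfl
  · funext v
    exact parity_add_two _ _

/-- The base vertices of the two graphs correspond fiberwise. -/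
def vxEquiv (hw : 1 ≤ w) : I.Vx w 0 ≃ I.Vx w 1 where
  toFun := flipVx hw (by simp)
  invFun := flipVx hw (by decide)
  left_inv := fun u => flipVx_flipVx hw _ _ u
  right_inv := fun u => flipVx_flipVx hw _ _ u

lemma card_vx (hw : 1 ≤ w) : Fintype.card (I.Vx w 1) = Fintype.card (I.Vx w 0) :=
  (Fintype.card_congr (vxEquiv (I := I) hw)).symm

/-- The two graphs have the same number of vertices. -/
def vtxEquiv (hw : 1 ≤ w) : I.Vtx w 0 ≃ I.Vtx w 1 :=
  Equiv.sumCongr (vxEquiv hw) (Equiv.sigmaCongr (vxEquiv hw) (fun u => finCongr (by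
    have : ((vxEquiv (I := I) hw) u).fib = u.fib := rfl
    rw [this])))

lemma card_vtx (hw : 1 ≤ w) : Fintype.card (I.Vtx w 1) = Fintype.card (I.Vtx w 0) :=
  (Fintype.card_congr (vtxEquiv (I := I) hw)).symm

/-- The Duplicator relation on tuples. -/
def Dup {t : ℕ} (x : Fin t → I.Vtx w 0) (x' : Fin t → I.Vtx w 1) : Prop :=
  ∃ Θ : I.PVar w → ZMod 2, I.Valid w Θ (Finset.univ.image (fun s => I.fibOf w (x s))) ∧
    ∀ s, I.Rel w Θ (x s) (x' s)

lemma Dup.atomic {t : ℕ} {x : Fin t → I.Vtx w 0} {x' : Fin t → I.Vtx w 1} (h : Dup x x') :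
    atomicType (I.Gr w 0) x = atomicType (I.Gr w 1) x' := by
  obtain ⟨Θ, -, hR⟩ := h
  funext i j
  simp only [atomicType]
  have h1 := Rel.eq_iff (hR i) (hR j)
  have h2 := Rel.adj_iff (hR i) (hR j)
  exact Prod.ext (decide_eq_decide.2 h1) (decide_eq_decide.2 h2)

lemma Dup.step (hU : ¬ I.Solvable) (hw : I.k + 2 ≤ w) {x : Fin (I.k + w) → I.Vtx w 0}
    {x' : Fin (I.k + w) → I.Vtx w 1} (h : Dup x x') :
    ∃ f : I.Vtx w 0 → I.Vtx w 1, Function.Bijective f ∧
      ∀ y i, Dup (Function.update x i y) (Function.update x' i (f y)) := by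
  obtain ⟨Θ, hV, hR⟩ := h
  set P := Finset.univ.image (fun s => I.fibOf w (x s)) with hPdef
  have hP : P.card ≤ I.k + w := by
    have := Finset.card_image_le (s := (Finset.univ : Finset (Fin (I.k + w))))
      (f := fun s => I.fibOf w (x s))
    simpa using this
  have hext := fun φ => I.extend w hU hw hP hV φ
  choose T hT hag using hext
  have hpar : ∀ y : I.Vtx w 0, I.parity w (I.fibOf w y) (T (I.fibOf w y)) =
      I.twist w 1 (I.fibOf w y) := fun y =>
    Valid.parity_pinned (hT _) (Finset.mem_insert_self _ _)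
  have hex : ∀ y : I.Vtx w 0, ∃ y' : I.Vtx w 1, I.Rel w (T (I.fibOf w y)) y y' := fun y =>
    exists_shift _ y (hpar y)
  choose f hf using hex
  have hinj : Function.Injective f := by
    intro a b hab
    have h1 := Rel.fib_eq (hf a)
    have h2 := Rel.fib_eq (hf b)
    rw [hab] at h1
    have hfib : I.fibOf w a = I.fibOf w b := h1.symm.trans h2
    have h3 := hf a
    rw [hfib] at h3
    exact (Rel.eq_iff h3 (hf b)).2 hab
  have hbij : Function.Bijective f := by
    rw [Fintype.bijective_iff_injective_and_card]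
    exact ⟨hinj, (card_vtx (by omega)).symm⟩
  refine ⟨f, hbij, fun y i => ⟨T (I.fibOf w y), ?_, fun s => ?_⟩⟩
  · refine Valid.mono I w ?_ (hT (I.fibOf w y))
    intro φ hφ
    simp only [Finset.mem_image, Finset.mem_univ, true_and] at hφ
    obtain ⟨s, rfl⟩ := hφ
    by_cases hs : s = i
    · subst hs
      simp
    · rw [Function.update_of_ne hs]
      apply Finset.mem_insert_of_mem
      exact Finset.mem_image.2 ⟨s, Finset.mem_univ _, rfl⟩
  · by_cases hs : s = i
    · subst hs
      simpa using hf y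
    · rw [Function.update_of_ne hs, Function.update_of_ne hs]
      apply Rel.congr (hR s)
      apply hag
      exact Finset.mem_image.2 ⟨s, Finset.mem_univ _, rfl⟩

lemma Dup.eqAt (hU : ¬ I.Solvable) (hw : I.k + 2 ≤ w) (r : ℕ) :
    ∀ {x : Fin (I.k + w) → I.Vtx w 0} {x' : Fin (I.k + w) → I.Vtx w 1}, Dup x x' →
      EqAt (I.Gr w 0) (I.Gr w 1) r x x' := by
  induction r with
  | zero =>
    intro x x' h
    exact h.atomic
  | succ r ih =>
    intro x x' h
    obtain ⟨f, hf, hD⟩ := Dup.step hU hw h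
    have h1 : EqAt (I.Gr w 0) (I.Gr w 1) r x x' := ih h
    unfold EqAt at h1 ⊢
    simp only [wlColor]
    rw [h1]
    congr 1
    let e := Equiv.ofBijective f hf
    have h2 : (Finset.univ : Finset (I.Vtx w 1)).val =
        (Finset.univ : Finset (I.Vtx w 0)).val.map e := by
      rw [Multiset.map_univ_val_equiv]
    rw [h2, Multiset.map_map]
    apply Multiset.map_congr rfl
    intro y _
    funext i
    exact ih (hD y i)

/-- The zero vertex of a fiber, in the untwisted graph. -/
def zeroVx (φ : I.Fiber w) : I.Vx w 0 :=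
  ⟨φ, fun _ => 0, fun _ _ => rfl, by
    rcases φ with N | z
    · simp [parity, twist]
    · rfl⟩

/-- If the instance is not solvable, the two graphs are `(k + w)`-WL equivalent. -/
theorem wlEquiv_of_not_solvable (hU : ¬ I.Solvable) (hw : I.k + 2 ≤ w) :
    WLEquiv (I.k + w) (I.Gr w 0) (I.Gr w 1) := by
  have hL1 : 1 < I.pathLen w := pathLen_gt
  let N1 : Fin (I.pathLen w) := ⟨1, hL1⟩
  let y : I.Vtx w 0 := Sum.inl (zeroVx (Sum.inl N1))
  have hV : I.Valid w (fun _ => 0) (Finset.univ.image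
      (fun _ : Fin (I.k + w) => I.fibOf w y)) := by
    have hpinned : ∀ n, I.pin w (Finset.univ.image (fun _ : Fin (I.k + w) => I.fibOf w y)) n →
        n = 1 := by
      rintro n ⟨h, hm⟩
      simp only [Finset.mem_image, Finset.mem_univ, true_and] at hm
      obtain ⟨_, hm⟩ := hm
      have hm' : (Sum.inl N1 : I.Fiber w) = Sum.inl ⟨n, h⟩ := hm
      have := Sum.inl_injective hm'
      exact (congrArg Fin.val this).symm
    refine ⟨0, by omega, ?_, ?_, ?_⟩
    · intro h
      have := hpinned 0 h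
      omega
    · intro N
      have : I.parity w (Sum.inl N) (fun _ => 0) = 0 := by simp [parity]
      rw [this]
      by_cases hN : N.val = 0
      · simp [twist, hN]
        decide
      · simp [twist, hN]
    · intro i hi
      have h1 := hpinned _ (hi 0 (by omega))
      have h2 := hpinned _ (hi 1 (by omega))
      omega
  obtain ⟨y', hy'⟩ := exists_shift (fun _ => 0) y (Valid.parity_pinned hV (by
    apply Finset.mem_image.2
    exact ⟨⟨0, by omega⟩, Finset.mem_univ _, rfl⟩))
  refine wlEquiv_of_pair (fun _ => y) (fun _ => y') (fun r => Dup.eqAt hU hw r ?_)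
  exact ⟨fun _ => 0, hV, fun _ => hy'⟩

end Cov

end

end Vale.Agent.Lib.P310
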