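import Vale.Agent.Lib.P310.Dup2

namespace Vale.Agent.Lib.P310

open scoped Classical
open Finset

noncomputable section

namespace Cov

variable {I : Cov} {w : ℕ}

/-! Degrees identify fibers. -/

lemma deg_base_ge {b : ZMod 2} (u : I.Vx w b) :
    I.mult w u.fib ≤ deg' (I.Gr w b) (Sum.inl u) := by
  unfold deg'
  have := Finset.card_le_card_of_injOn (s := (Finset.univ : Finset (Fin (I.mult w u.fib))))
    (t := Finset.univ.filter (fun y => (I.Gr w b).Adj (Sum.inl u) y))
    (fun n => (Sum.inr ⟨u, n⟩ : I.Vtx w b))
    (fun n _ => by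
      simp only [Finset.coe_filter, Finset.mem_univ, true_and]
      exact rfl)
    (fun n _ n' _ h => by
      have h' := Sum.inr_injective h
      simpa using h')
  simpa using this

lemma deg_base_le {b : ZMod 2} (u : I.Vx w b) :
    deg' (I.Gr w b) (Sum.inl u) ≤ I.mult w u.fib + Fintype.card (I.Vx w b) := by
  unfold deg'
  have hsub : Finset.univ.filter (fun y => (I.Gr w b).Adj (Sum.inl u) y) ⊆
      (Finset.univ : Finset (Fin (I.mult w u.fib))).image
        (fun n => (Sum.inr ⟨u, n⟩ : I.Vtx w b)) ∪
      (Finset.univ : Finset (I.Vx w b)).image (fun u' => (Sum.inl u' : I.Vtx w b)) := by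
    intro y hy
    simp only [Finset.mem_filter, Finset.mem_univ, true_and] at hy
    rcases y with u' | ⟨u', n⟩
    · apply Finset.mem_union_right
      exact Finset.mem_image.2 ⟨u', Finset.mem_univ _, rfl⟩
    · have he : u' = u := hy
      subst he
      apply Finset.mem_union_left
      exact Finset.mem_image.2 ⟨n, Finset.mem_univ _, rfl⟩
  refine (Finset.card_le_card hsub).trans ((Finset.card_union_le _ _).trans ?_)
  have h1 := Finset.card_image_le (s := (Finset.univ : Finset (Fin (I.mult w u.fib))))
    (f := fun n => (Sum.inr ⟨u, n⟩ : I.Vtx w b))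
  have h2 := Finset.card_image_le (s := (Finset.univ : Finset (I.Vx w b)))
    (f := fun u' => (Sum.inl u' : I.Vtx w b))
  simp only [Finset.card_univ, Fintype.card_fin] at h1 h2
  omega

lemma deg_leaf_le {b : ZMod 2} (l : Σ u : I.Vx w b, Fin (I.mult w u.fib)) :
    deg' (I.Gr w b) (Sum.inr l) ≤ 1 := by
  unfold deg'
  have hsub : Finset.univ.filter (fun y => (I.Gr w b).Adj (Sum.inr l) y) ⊆
      {(Sum.inl l.1 : I.Vtx w b)} := by
    intro y hy
    simp only [Finset.mem_filter, Finset.mem_univ, true_and] at hy
    rcases y with u' | l'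
    · have he : l.1 = u' := hy
      subst he
      simp
    · exact False.elim hy
  simpa using Finset.card_le_card hsub

lemma mult_eq (φ : I.Fiber w) : I.mult w φ =
    ((Fintype.equivFin (I.Fiber w) φ).val + 1) * (Fintype.card (I.Vx w 0) + 2) := rfl

/-- A vertex with the degree of a zero vertex lies in the same fiber. -/
lemma fib_of_deg (hw : 1 ≤ w) (φ : I.Fiber w) (y' : I.Vtx w 1)
    (h : deg' (I.Gr w 0) (Sum.inl (zeroVx φ)) = deg' (I.Gr w 1) y') :
    ∃ u' : I.Vx w 1, y' = Sum.inl u' ∧ u'.fib = φ := by
  have h1 := deg_base_ge (zeroVx (I := I) (w := w) φ)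
  have h2 := deg_base_le (zeroVx (I := I) (w := w) φ)
  have hφ : (zeroVx (I := I) (w := w) φ).fib = φ := rfl
  rw [hφ] at h1 h2
  set c := Fintype.card (I.Vx w 0) with hc
  set i := (Fintype.equivFin (I.Fiber w) φ).val with hi
  have hm : I.mult w φ = (i + 1) * (c + 2) := rfl
  rcases y' with u' | l
  · refine ⟨u', rfl, ?_⟩
    have h3 := deg_base_ge u'
    have h4 := deg_base_le u'
    rw [card_vx hw, ← hc] at h4
    set j := (Fintype.equivFin (I.Fiber w) u'.fib).val with hj
    have hm' : I.mult w u'.fib = (j + 1) * (c + 2) := rfl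
    have hij : i = j := by
      rcases lt_trichotomy i j with hlt | heq | hlt
      · exfalso
        have : (i + 1 + 1) * (c + 2) ≤ (j + 1) * (c + 2) := Nat.mul_le_mul_right _ (by omega)
        have e : (i + 1 + 1) * (c + 2) = (i + 1) * (c + 2) + (c + 2) := by ring
        omega
      · exact heq
      · exfalso
        have : (j + 1 + 1) * (c + 2) ≤ (i + 1) * (c + 2) := Nat.mul_le_mul_right _ (by omega)
        have e : (j + 1 + 1) * (c + 2) = (j + 1) * (c + 2) + (c + 2) := by ring
        omega
    have : Fintype.equivFin (I.Fiber w) u'.fib = Fintype.equivFin (I.Fiber w) φ :=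
      Fin.ext hij.symm
    exact (Fintype.equivFin (I.Fiber w)).injective this
  · exfalso
    have h3 := deg_leaf_le l
    have : 1 * (c + 2) ≤ (i + 1) * (c + 2) := Nat.mul_le_mul_right _ (by omega)
    omega

/-! Tuples of zero vertices. -/

variable (I w) in
/-- The zero vertex of a fiber, as a vertex of the untwisted graph. -/
def zv (φ : I.Fiber w) : I.Vtx w 0 := Sum.inl (zeroVx φ)

lemma zv_adj {φ φ' : I.Fiber w} (h : φ ≠ φ') : (I.Gr w 0).Adj (I.zv w φ) (I.zv w φ') :=
  ⟨h, fun _ _ _ => rfl⟩

/-- The image tuple has the fibers `pos` and reads off the global assignment `val`. -/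
def Match {t : ℕ} (pos : Fin t → I.Fiber w) (val : I.PVar w → ZMod 2)
    (x' : Fin t → I.Vtx w 1) : Prop :=
  ∀ s, ∃ u' : I.Vx w 1, x' s = Sum.inl u' ∧ u'.fib = pos s ∧
    ∀ v, I.inFib w (pos s) v → u'.a v = val v

lemma atomic_iff {V W : Type} {G : SimpleGraph V} {H : SimpleGraph W} {t : ℕ}
    {x : Fin t → V} {x' : Fin t → W} (h : atomicType G x = atomicType H x') (i j : Fin t) :
    (x i = x j ↔ x' i = x' j) ∧ (G.Adj (x i) (x j) ↔ H.Adj (x' i) (x' j)) := by
  have := congrFun (congrFun h i) j
  simp only [atomicType, Prod.mk.injEq, decide_eq_decide] at this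
  exact this

lemma exists_other {t : ℕ} (ht : 2 ≤ t) (s : Fin t) : ∃ j, s ≠ j := by
  by_cases h : s.val = 0
  · exact ⟨⟨1, by omega⟩, fun e => by
      have := congrArg Fin.val e
      simp at this
      omega⟩
  · exact ⟨⟨0, by omega⟩, fun e => by
      have := congrArg Fin.val e
      simp at this
      omega⟩

/-- Either the tuples are separated, or the image tuple reads off a global assignment. -/
lemma lost_or_match (hw : 1 ≤ w) {t : ℕ} (ht : 2 ≤ t) (pos : Fin t → I.Fiber w)
    (x' : Fin t → I.Vtx w 1) :
    LostAt (I.Gr w 0) (I.Gr w 1) (fun s => I.zv w (pos s)) x' ∨ ∃ val, Match pos val x' := by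
  by_cases hl : LostAt (I.Gr w 0) (I.Gr w 1) (fun s => I.zv w (pos s)) x'
  · exact Or.inl hl
  · right
    have hE : ∀ r, EqAt (I.Gr w 0) (I.Gr w 1) r (fun s => I.zv w (pos s)) x' := by
      intro r
      by_contra h
      exact hl ⟨r, h⟩
    have hex : ∀ s, ∃ u' : I.Vx w 1, x' s = Sum.inl u' ∧ u'.fib = pos s := by
      intro s
      obtain ⟨j, hj⟩ := exists_other ht s
      exact fib_of_deg hw (pos s) (x' s) ((hE 1).deg s j hj)
    choose u hu hf using hex
    have hat := (hE 0).atomic
    have hag : ∀ s s' v, I.inFib w (pos s) v → I.inFib w (pos s') v → (u s).a v = (u s').a v := by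
      intro s s' v h1 h2
      have hi := atomic_iff hat s s'
      by_cases hp : pos s = pos s'
      · have : x' s = x' s' := hi.1.1 (by simp only [hp])
        rw [hu s, hu s'] at this
        rw [Sum.inl_injective this]
      · have ha := hi.2.1 (zv_adj hp)
        rw [hu s, hu s'] at ha
        have hb : I.baseAdj w (u s) (u s') := ha
        exact hb.2 v (by rwa [hf s]) (by rwa [hf s'])
    refine ⟨fun v => if h : ∃ s, I.inFib w (pos s) v then (u h.choose).a v else 0, fun s => ?_⟩
    refine ⟨u s, hu s, hf s, fun v hv => ?_⟩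
    have h : ∃ s, I.inFib w (pos s) v := ⟨s, hv⟩
    simp only [h, dif_pos]
    exact hag _ _ v hv h.choose_spec

/-! The parity invariant of the sweep. -/

variable (I w) in
/-- The sum of the edge values across the cut before node `i`. -/
def crossing (i : ℕ) (val : I.PVar w → ZMod 2) : ZMod 2 :=
  ∑ p : Fin (I.pathLen w) × Fin (I.pathLen w),
    if p.1 < p.2 ∧ p.2.val ≤ p.1.val + w ∧ p.1.val < i ∧ i ≤ p.2.val then val (Sum.inl p) else 0

variable (I w) in
/-- The sum of the values of the extra variables placed before node `i`. -/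
def extSum (i : ℕ) (val : I.PVar w → ZMod 2) : ZMod 2 :=
  ∑ N : Fin (I.pathLen w), if N.val < i then
    ∑ x : I.Ext, if N.val = I.occ1 w x ∨ N.val = I.occ2 w x then val (Sum.inr x) else 0 else 0

variable (I w) in
/-- The sum of the required parities before node `i`. -/
def dSum (i : ℕ) : ZMod 2 :=
  ∑ N : Fin (I.pathLen w), if N.val < i then I.twist w 1 (Sum.inl N) else 0

variable (I w) in
/-- The invariant of the sweep: the value of the cut before node `i` is determined. -/
def Inv (i : ℕ) (val : I.PVar w → ZMod 2) : Prop :=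
  I.crossing w i val + I.extSum w i val = I.dSum w i

lemma sum_lt_succ {L : ℕ} (g : Fin L → ZMod 2) (i : ℕ) (hi : i < L) :
    (∑ N : Fin L, if N.val < i + 1 then g N else 0) =
      (∑ N : Fin L, if N.val < i then g N else 0) + g ⟨i, hi⟩ := by
  have h : ∀ N : Fin L, (if N.val < i + 1 then g N else 0) =
      (if N.val < i then g N else 0) + (if N = ⟨i, hi⟩ then g ⟨i, hi⟩ else 0) := by
    intro N
    by_cases h1 : N = ⟨i, hi⟩
    · subst h1; simp
    · have h2 : N.val ≠ i := fun h => h1 (Fin.ext h)
      by_cases h3 : N.val < i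
      · simp [h1, h3, show N.val < i + 1 by omega]
      · simp [h1, h3, show ¬ N.val < i + 1 by omega]
  rw [Finset.sum_congr rfl (fun N _ => h N), Finset.sum_add_distrib]
  simp

lemma parity_split (N : Fin (I.pathLen w)) (val : I.PVar w → ZMod 2) :
    I.parity w (Sum.inl N) val =
      (∑ p : Fin (I.pathLen w) × Fin (I.pathLen w),
        if p.1 < p.2 ∧ p.2.val ≤ p.1.val + w ∧ (N = p.1 ∨ N = p.2) then val (Sum.inl p) else 0) +
      ∑ x : I.Ext, if N.val = I.occ1 w x ∨ N.val = I.occ2 w x then val (Sum.inr x) else 0 := by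
  simp only [parity]
  rw [Fintype.sum_sum_type]
  congr 1
  · exact Finset.sum_congr rfl (fun p _ => if_congr Iff.rfl rfl rfl)
  · exact Finset.sum_congr rfl (fun p _ => if_congr Iff.rfl rfl rfl)

lemma crossing_succ (i : ℕ) (hi : i < I.pathLen w) (val : I.PVar w → ZMod 2) :
    I.crossing w (i + 1) val = I.crossing w i val +
      ∑ p : Fin (I.pathLen w) × Fin (I.pathLen w),
        if p.1 < p.2 ∧ p.2.val ≤ p.1.val + w ∧ ((⟨i, hi⟩ : Fin (I.pathLen w)) = p.1 ∨ ⟨i, hi⟩ = p.2)
          then val (Sum.inl p) else 0 := by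
  simp only [crossing]
  rw [← Finset.sum_add_distrib]
  apply Finset.sum_congr rfl
  intro p _
  have hz := parity_add_two (0 : ZMod 2) (val (Sum.inl p))
  rw [zero_add] at hz
  obtain ⟨p1, p2⟩ := p
  simp only [Fin.lt_def, Fin.ext_iff]
  split_ifs <;> first | (exfalso; omega) | simp | exact hz.symm

lemma Inv.succ {i : ℕ} (hi : i < I.pathLen w) {val : I.PVar w → ZMod 2} (h : I.Inv w i val)
    (hp : I.parity w (Sum.inl ⟨i, hi⟩) val = I.twist w 1 (Sum.inl ⟨i, hi⟩)) :
    I.Inv w (i + 1) val := by
  unfold Inv at h ⊢
  rw [crossing_succ i hi]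
  have he : I.extSum w (i + 1) val = I.extSum w i val +
      ∑ x : I.Ext, if i = I.occ1 w x ∨ i = I.occ2 w x then val (Sum.inr x) else 0 :=
    sum_lt_succ (fun N : Fin (I.pathLen w) =>
      ∑ x : I.Ext, if N.val = I.occ1 w x ∨ N.val = I.occ2 w x then val (Sum.inr x) else 0) i hi
  have hd : I.dSum w (i + 1) = I.dSum w i + I.twist w 1 (Sum.inl ⟨i, hi⟩) :=
    sum_lt_succ (fun N : Fin (I.pathLen w) => I.twist w 1 (Sum.inl N)) i hi
  rw [he, hd, ← h, ← hp, parity_split]
  ring

lemma crossing_end (val : I.PVar w → ZMod 2) : I.crossing w (I.pathLen w) val = 0 := by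
  simp only [crossing]
  apply Finset.sum_eq_zero
  rintro ⟨p1, p2⟩ _
  have := p2.isLt
  rw [if_neg]
  rintro ⟨-, -, -, h⟩
  simp only at h
  omega

lemma sum_indicator_fin {L : ℕ} (n : ℕ) (hn : n < L) (c : ZMod 2) :
    (∑ N : Fin L, if N.val = n then c else 0) = c := by
  have h : ∀ N : Fin L, (if N.val = n then c else 0) = if N = ⟨n, hn⟩ then c else 0 := by
    intro N
    simp [Fin.ext_iff]
  rw [Finset.sum_congr rfl (fun N _ => h N)]
  simp

lemma extSum_end (val : I.PVar w → ZMod 2) : I.extSum w (I.pathLen w) val = 0 := by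
  simp only [extSum]
  have h1 : ∀ N : Fin (I.pathLen w), (if N.val < I.pathLen w then
      ∑ x : I.Ext, if N.val = I.occ1 w x ∨ N.val = I.occ2 w x then val (Sum.inr x) else 0 else 0) =
      ∑ x : I.Ext, if N.val = I.occ1 w x ∨ N.val = I.occ2 w x then val (Sum.inr x) else 0 := by
    intro N
    rw [if_pos N.isLt]
  rw [Finset.sum_congr rfl (fun N _ => h1 N), Finset.sum_comm]
  apply Finset.sum_eq_zero
  intro x _
  have hne : I.occ1 w x ≠ I.occ2 w x := by
    have h1 := I.occ1_lt w x
    have h2 := I.occ2_ge w x
    omega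
  have h2 : ∀ N : Fin (I.pathLen w),
      (if N.val = I.occ1 w x ∨ N.val = I.occ2 w x then val (Sum.inr x) else 0) =
      (if N.val = I.occ1 w x then val (Sum.inr x) else 0) +
        (if N.val = I.occ2 w x then val (Sum.inr x) else 0) := by
    intro N
    by_cases c1 : N.val = I.occ1 w x
    · have c2 : N.val ≠ I.occ2 w x := by omega
      rw [if_pos (Or.inl c1), if_pos c1, if_neg c2, add_zero]
    · by_cases c2 : N.val = I.occ2 w x
      · rw [if_pos (Or.inr c2), if_neg c1, if_pos c2, zero_add]
      · rw [if_neg (by tauto), if_neg c1, if_neg c2, zero_add]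
  rw [Finset.sum_congr rfl (fun N _ => h2 N), Finset.sum_add_distrib,
    sum_indicator_fin _ (I.occ1_ltL w x), sum_indicator_fin _ (I.occ2_ltL w x)]
  have hz := parity_add_two (0 : ZMod 2) (val (Sum.inr x))
  rwa [zero_add] at hz

lemma dSum_end : I.dSum w (I.pathLen w) = 1 := by
  simp only [dSum]
  have hL : 0 < I.pathLen w := lt_trans Nat.zero_lt_one pathLen_gt
  have h1 : ∀ N : Fin (I.pathLen w), (if N.val < I.pathLen w then I.twist w 1 (Sum.inl N) else 0) =
      if N.val = 0 then 1 else 0 := by
    intro N
    rw [if_pos N.isLt]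
    rfl
  rw [Finset.sum_congr rfl (fun N _ => h1 N), sum_indicator_fin 0 hL]

lemma not_inv_end (val : I.PVar w → ZMod 2) : ¬ I.Inv w (I.pathLen w) val := by
  unfold Inv
  rw [crossing_end, extSum_end, dSum_end]
  decide

lemma inv_zero (val : I.PVar w → ZMod 2) : I.Inv w 0 val := by
  unfold Inv crossing extSum dSum
  simp

/-! The sweep. -/

/-- The pins: the zero vertices of the chosen fibers and of `w` consecutive nodes from `i` on. -/
def Cover {t : ℕ} (a : ∀ g, I.A g) (pos : Fin t → I.Fiber w) (i : ℕ) : Prop :=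
  (∀ g, ∃ s, pos s = Sum.inr ⟨g, a g⟩) ∧
  ∀ n, i ≤ n → n < i + w → ∃ h : n < I.pathLen w, ∃ s, pos s = Sum.inl ⟨n, h⟩

lemma parity_of_match {t : ℕ} {pos : Fin t → I.Fiber w} {val : I.PVar w → ZMod 2}
    {x' : Fin t → I.Vtx w 1} (hm : Match pos val x') {s : Fin t} {N : Fin (I.pathLen w)}
    (hs : pos s = Sum.inl N) : I.parity w (Sum.inl N) val = I.twist w 1 (Sum.inl N) := by
  obtain ⟨u', -, hf, hv⟩ := hm s
  have hp := u'.par
  rw [hf, hs] at hp
  rw [← hp]
  apply parity_congr
  intro v hon
  refine (hv v ?_).symm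
  rw [hs]
  exact hon

/-- Run through the rest of the path: from `Inv i` to `Inv (i + j)` at pinned nodes. -/
lemma inv_window {t : ℕ} {pos : Fin t → I.Fiber w} {val : I.PVar w → ZMod 2}
    {x' : Fin t → I.Vtx w 1} (hm : Match pos val x') {i : ℕ}
    (hcov : ∀ n, i ≤ n → n < i + w → ∃ h : n < I.pathLen w, ∃ s, pos s = Sum.inl ⟨n, h⟩)
    (h : I.Inv w i val) : ∀ j, j ≤ w → I.Inv w (i + j) val := by
  intro j
  induction j with
  | zero => intro _; simpa using h
  | succ j ih =>
    intro hj
    have h1 := ih (by omega)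
    obtain ⟨hL, s, hs⟩ := hcov (i + j) (by omega) (by omega)
    have := Inv.succ hL h1 (parity_of_match hm hs)
    simpa [Nat.add_assoc] using this

/-- The sweep of Spoiler along the path. -/
lemma sweep (a : ∀ g, I.A g) (hS : ∀ C : I.Cl, ∃ g, I.Sat g (a g) C) (hw : I.k + 2 ≤ w) :
    ∀ d i, I.pathLen w = i + w + d → ∀ pos : Fin (I.k + w) → I.Fiber w, Cover a pos i →
      ∀ val, I.Inv w i val → ∀ x', Match pos val x' →
        LostAt (I.Gr w 0) (I.Gr w 1) (fun s => I.zv w (pos s)) x' := by
  intro d
  induction d with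
  | zero =>
    intro i hL pos hcov val hinv x' hm
    exfalso
    have h1 := inv_window hm hcov.2 hinv w le_rfl
    have h2 : i + w = I.pathLen w := by omega
    rw [h2] at h1
    exact not_inv_end val h1
  | succ d ih =>
    intro i hL pos hcov val hinv x' hm
    have ht : 2 ≤ I.k + w := by omega
    have hw1 : 1 ≤ w := by omega
    obtain ⟨hiL, s0, hs0⟩ := hcov.2 i le_rfl (by omega)
    have hnL : i + w < I.pathLen w := by omega
    let φ : I.Fiber w := Sum.inl ⟨i + w, hnL⟩
    apply lost_step (I.zv w φ)
    intro y'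
    by_cases hd : deg' (I.Gr w 0) (I.zv w φ) = deg' (I.Gr w 1) y'
    · obtain ⟨u', rfl, hf⟩ := fib_of_deg hw1 φ y' hd
      by_cases hmis : ∃ s v, I.inFib w (pos s) v ∧ I.inFib w φ v ∧ u'.a v ≠ val v
      · obtain ⟨s, v, h1, h2, h3⟩ := hmis
        obtain ⟨j, hj⟩ := exists_other ht s
        refine ⟨j, lost_of_atomic ?_⟩
        intro hat
        have hi := atomic_iff hat j s
        rw [Function.update_self, Function.update_self, Function.update_of_ne hj,
          Function.update_of_ne hj] at hi
        obtain ⟨us, hus, hfs, hvs⟩ := hm s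
        rw [hus] at hi
        by_cases hp : φ = pos s
        · have h4 := hi.1.1 (by rw [hp])
          have e := Sum.inl_injective h4
          apply h3
          rw [e]
          exact hvs v h1
        · have ha := hi.2.1 (zv_adj hp)
          have hb : I.baseAdj w u' us := ha
          apply h3
          exact (hb.2 v (by rwa [hf]) (by rwa [hfs])).trans (hvs v h1)
      · push Not at hmis
        refine ⟨s0, ?_⟩
        have e : Function.update (fun s => I.zv w (pos s)) s0 (I.zv w φ) =
            fun s => I.zv w (Function.update pos s0 φ s) := by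
          funext s
          by_cases hs : s = s0
          · subst hs; simp
          · simp [Function.update_of_ne hs]
        rw [e]
        let val' : I.PVar w → ZMod 2 := fun v => if I.inFib w φ v then u'.a v else val v
        have hval : ∀ s v, I.inFib w (pos s) v → val' v = val v := by
          intro s v hv
          by_cases hc : I.inFib w φ v
          · simp only [val', hc, if_true]
            exact hmis s v hv hc
          · simp only [val', hc, if_false]
        refine ih (i + 1) (by omega) (Function.update pos s0 φ) ?_ val' ?_ _ ?_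
        · refine ⟨fun g => ?_, fun n h1 h2 => ?_⟩
          · obtain ⟨s, hs⟩ := hcov.1 g
            have hne : s ≠ s0 := by
              rintro rfl
              rw [hs0] at hs
              cases hs
            exact ⟨s, by rw [Function.update_of_ne hne, hs]⟩
          · by_cases hn : n = i + w
            · subst hn
              exact ⟨hnL, s0, by simp [φ]⟩
            · obtain ⟨h, s, hs⟩ := hcov.2 n (by omega) (by omega)
              have hne : s ≠ s0 := by
                rintro rfl
                rw [hs0] at hs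
                have := Sum.inl_injective hs
                have := congrArg Fin.val this
                simp only at this
                omega
              exact ⟨h, s, by rw [Function.update_of_ne hne, hs]⟩
        · have h1 : I.Inv w (i + 1) val := Inv.succ hiL hinv (parity_of_match hm hs0)
          unfold Inv at h1 ⊢
          have hc : I.crossing w (i + 1) val' = I.crossing w (i + 1) val := by
            simp only [crossing]
            apply Finset.sum_congr rfl
            rintro ⟨p1, p2⟩ _
            split_ifs with hcond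
            · obtain ⟨hlt, hle, h3, h4⟩ := hcond
              simp only at hlt hle h3 h4
              by_cases hb : p2.val < i + w
              · obtain ⟨h, s, hs⟩ := hcov.2 p2.val (by omega) hb
                apply hval s
                rw [hs]
                exact ⟨hlt, hle, Or.inr (Fin.ext rfl)⟩
              · apply hval s0
                rw [hs0]
                refine ⟨hlt, hle, Or.inl (Fin.ext ?_)⟩
                simp only
                omega
            · rfl
          have hx : ∀ x : I.Ext, val' (Sum.inr x) = val (Sum.inr x) := by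
            rintro (⟨g, j⟩ | C)
            · obtain ⟨s, hs⟩ := hcov.1 g
              apply hval s
              rw [hs]
              rfl
            · obtain ⟨g, hg⟩ := hS C
              obtain ⟨s, hs⟩ := hcov.1 g
              apply hval s
              rw [hs]
              exact hg
          have he : I.extSum w (i + 1) val' = I.extSum w (i + 1) val := by
            simp only [extSum, hx]
          rw [hc, he]
          exact h1
        · intro s
          by_cases hs : s = s0
          · subst hs
            refine ⟨u', by simp, by simpa using hf, fun v hv => ?_⟩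
            rw [Function.update_self] at hv
            simp only [val', hv, if_true]
          · obtain ⟨us, hus, hfs, hvs⟩ := hm s
            rw [Function.update_of_ne hs, Function.update_of_ne hs]
            exact ⟨us, hus, hfs, fun v hv => by rw [hvs v hv, hval s v hv]⟩
    · obtain ⟨j, hj⟩ := exists_other ht s0
      refine ⟨s0, lost_of_deg s0 j hj ?_⟩
      simpa using hd

/-- If the instance is solvable, `(k + w)`-WL distinguishes the two graphs. -/
theorem not_wlEquiv_of_solvable (hS : I.Solvable) (hw : I.k + 2 ≤ w) :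
    ¬ WLEquiv (I.k + w) (I.Gr w 0) (I.Gr w 1) := by
  obtain ⟨a, ha⟩ := hS
  have hL : I.pathLen w = I.mid w + 2 * I.gap w + 1 + I.numExt := rfl
  have hgap : I.gap w = I.k + w + 2 := rfl
  let pos : Fin (I.k + w) → I.Fiber w := fun s =>
    if h : s.val < I.k then Sum.inr ⟨⟨s.val, h⟩, a ⟨s.val, h⟩⟩
    else Sum.inl ⟨s.val - I.k, by have := s.isLt; omega⟩
  have hcov : Cover a pos 0 := by
    refine ⟨fun g => ⟨⟨g.val, by have := g.isLt; omega⟩, ?_⟩, fun n _ h2 => ?_⟩
    · simp [pos]
    · refine ⟨by omega, ⟨I.k + n, by omega⟩, ?_⟩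
      simp [pos]
  apply not_wlEquiv_of_lost (fun s => I.zv w (pos s))
  intro x'
  rcases lost_or_match (by omega) (by omega) pos x' with h | ⟨val, hval⟩
  · exact h
  · exact sweep a ha hw (I.pathLen w - w) 0 (by omega) pos hcov val (inv_zero val) x' hval

/-- The reduction: the two graphs are `(k + w)`-WL equivalent iff the instance is not solvable. -/
theorem wlEquiv_iff (hw : I.k + 2 ≤ w) :
    WLEquiv (I.k + w) (I.Gr w 0) (I.Gr w 1) ↔ ¬ I.Solvable :=
  ⟨fun h hS => not_wlEquiv_of_solvable hS hw h, fun h => wlEquiv_of_not_solvable h hw⟩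

end Cov

end

end Vale.Agent.Lib.P310
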