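import Vale.Agent.Lib.P310.Defs

namespace Vale.Agent.Lib.P310

open scoped Classical
open Finset

variable {V W : Type} [Fintype V] [Fintype W] {G : SimpleGraph V} {H : SimpleGraph W} {t : ℕ}

/-- Same colour in round `r`. -/
def EqAt (G : SimpleGraph V) (H : SimpleGraph W) (r : ℕ) (x : Fin t → V) (x' : Fin t → W) : Prop :=
  wlColor G t r x = wlColor H t r x'

lemma EqAt.pred {r : ℕ} {x : Fin t → V} {x' : Fin t → W} (h : EqAt G H (r + 1) x x') :
    EqAt G H r x x' := by
  have := congrArg Prod.fst h
  simpa [wlColor, EqAt] using this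

lemma EqAt.mono {r s : ℕ} (hrs : r ≤ s) {x : Fin t → V} {x' : Fin t → W} (h : EqAt G H s x x') :
    EqAt G H r x x' := by
  induction s, hrs using Nat.le_induction with
  | base => exact h
  | succ s _ ih => exact ih h.pred

lemma EqAt.atomic {r : ℕ} {x : Fin t → V} {x' : Fin t → W} (h : EqAt G H r x x') :
    atomicType G x = atomicType H x' :=
  EqAt.mono (Nat.zero_le r) h

lemma EqAt.multiset {r : ℕ} {x : Fin t → V} {x' : Fin t → W} (h : EqAt G H (r + 1) x x') :
    (Finset.univ : Finset V).val.map (fun y => fun i => wlColor G t r (Function.update x i y)) =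
      (Finset.univ : Finset W).val.map (fun y => fun i => wlColor H t r (Function.update x' i y)) := by
  have := congrArg Prod.snd h
  simpa [wlColor] using this

lemma EqAt.step {r : ℕ} {x : Fin t → V} {x' : Fin t → W} (h : EqAt G H (r + 1) x x') (y : V) :
    ∃ y' : W, ∀ i, EqAt G H r (Function.update x i y) (Function.update x' i y') := by
  have hm := h.multiset
  have hy : (fun i => wlColor G t r (Function.update x i y)) ∈
      (Finset.univ : Finset V).val.map (fun y => fun i => wlColor G t r (Function.update x i y)) :=
    Multiset.mem_map.2 ⟨y, by simp, rfl⟩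
  rw [hm] at hy
  obtain ⟨y', -, hy'⟩ := Multiset.mem_map.1 hy
  exact ⟨y', fun i => (congrFun hy' i).symm⟩

/-- Some round separates the two tuples. -/
def LostAt (G : SimpleGraph V) (H : SimpleGraph W) (x : Fin t → V) (x' : Fin t → W) : Prop :=
  ∃ r, ¬ EqAt G H r x x'

lemma lost_of_atomic {x : Fin t → V} {x' : Fin t → W} (h : atomicType G x ≠ atomicType H x') :
    LostAt G H x x' :=
  ⟨0, fun h0 => h h0⟩

lemma lost_step {x : Fin t → V} {x' : Fin t → W} (y : V)
    (h : ∀ y' : W, ∃ i, LostAt G H (Function.update x i y) (Function.update x' i y')) :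
    LostAt G H x x' := by
  classical
  choose i hi using h
  choose r hr using hi
  refine ⟨(Finset.univ.sup r) + 1, fun he => ?_⟩
  obtain ⟨y', hy'⟩ := he.step y
  exact hr y' (EqAt.mono (Finset.le_sup (Finset.mem_univ y')) (hy' (i y')))

/-- The degree of a vertex, as a count. -/
noncomputable def deg' {U : Type} [Fintype U] (G : SimpleGraph U) (v : U) : ℕ :=
  (Finset.univ.filter (fun y => G.Adj v y)).card

lemma EqAt.deg {x : Fin t → V} {x' : Fin t → W} (h : EqAt G H 1 x x') (i j : Fin t) (hij : i ≠ j) :
    deg' G (x i) = deg' H (x' i) := by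
  have hm := (EqAt.multiset (r := 0) h)
  have key := congrArg
    (Multiset.countP (fun τ : Fin t → Color t 0 => ((τ j) j i).2 = true)) hm
  rw [Multiset.countP_map, Multiset.countP_map] at key
  have hl : ∀ (U : Type) [Fintype U] (K : SimpleGraph U) (z : Fin t → U),
      (Multiset.filter (fun a : U => ((wlColor K t 0 (Function.update z j a)) j i).2 = true)
        (Finset.univ : Finset U).val).card = deg' K (z i) := by
    intro U _ K z
    unfold deg'
    rw [Finset.card_def, Finset.filter_val]
    congr 1
    apply Multiset.filter_congr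
    intro a _
    simp only [wlColor, atomicType, Function.update_self, Function.update_of_ne hij,
      decide_eq_true_eq]
    exact ⟨fun h => h.symm, fun h => h.symm⟩
  have e1 := hl V G x
  have e2 := hl W H x'
  convert key using 1
  · exact e1.symm
  · exact e2.symm

lemma lost_of_deg {x : Fin t → V} {x' : Fin t → W} (i j : Fin t) (hij : i ≠ j)
    (h : deg' G (x i) ≠ deg' H (x' i)) : LostAt G H x x' :=
  ⟨1, fun he => h (he.deg i j hij)⟩

/-- Two functions whose multisets of values agree differ by a bijection. -/
lemma exists_equiv_of_map_eq {α β γ : Type} [Fintype α] [Fintype β] (f : α → γ) (g : β → γ)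
    (h : (Finset.univ : Finset α).val.map f = (Finset.univ : Finset β).val.map g) :
    ∃ e : α ≃ β, ∀ a, g (e a) = f a := by
  classical
  have hc : ∀ c : γ, Fintype.card {a // f a = c} = Fintype.card {b // g b = c} := by
    intro c
    have := congrArg (Multiset.count c) h
    rw [Multiset.count_map, Multiset.count_map] at this
    rw [Fintype.card_subtype, Fintype.card_subtype]
    simp only [Finset.card_def, Finset.filter_val]
    convert this using 2
    · apply Multiset.filter_congr; intro a _; exact eq_comm
    · apply Multiset.filter_congr; intro a _; exact eq_comm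
  let ec : ∀ c : γ, {a // f a = c} ≃ {b // g b = c} := fun c => Fintype.equivOfCardEq (hc c)
  refine ⟨(Equiv.sigmaFiberEquiv f).symm.trans
    ((Equiv.sigmaCongrRight ec).trans (Equiv.sigmaFiberEquiv g)), fun a => ?_⟩
  simpa [Equiv.sigmaFiberEquiv] using (ec (f a) ⟨a, rfl⟩).2

/-- Tuples which agree with `x` from slot `j` on and have colour `c` in round `r`. -/
noncomputable def countFrom {U : Type} [Fintype U] (K : SimpleGraph U) (r j : ℕ) (c : Color t r)
    (x : Fin t → U) : ℕ :=
  (Finset.univ.filter (fun z : Fin t → U => (∀ s : Fin t, j ≤ s.val → z s = x s) ∧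
    wlColor K t r z = c)).card

lemma countFrom_succ {U : Type} [Fintype U] (K : SimpleGraph U) (r j : ℕ) (hj : j < t)
    (c : Color t r) (x : Fin t → U) :
    countFrom K r (j + 1) c x =
      ∑ y : U, countFrom K r j c (Function.update x ⟨j, hj⟩ y) := by
  unfold countFrom
  rw [Finset.card_eq_sum_card_fiberwise (f := fun z : Fin t → U => z ⟨j, hj⟩)
    (t := Finset.univ) (fun _ _ => Finset.mem_coe.2 (Finset.mem_univ _))]
  apply Finset.sum_congr rfl
  intro y _
  congr 1
  ext z
  simp only [Finset.mem_filter, Finset.mem_univ, true_and]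
  constructor
  · rintro ⟨⟨h1, h2⟩, h3⟩
    refine ⟨fun s hs => ?_, h2⟩
    by_cases hsj : s = ⟨j, hj⟩
    · subst hsj; simpa using h3
    · rw [Function.update_of_ne hsj]
      apply h1
      have : s.val ≠ j := fun h => hsj (Fin.ext h)
      omega
  · rintro ⟨h1, h2⟩
    refine ⟨⟨fun s hs => ?_, h2⟩, ?_⟩
    · have hne : s ≠ ⟨j, hj⟩ := fun h => by
        subst h; simp at hs
      have := h1 s (by omega)
      rwa [Function.update_of_ne hne] at this
    · have := h1 ⟨j, hj⟩ le_rfl
      simpa using this

lemma countFrom_eq (r : ℕ) (c : Color t r) :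
    ∀ j, j ≤ t → ∀ (x : Fin t → V) (x' : Fin t → W), EqAt G H (r + j) x x' →
      countFrom G r j c x = countFrom H r j c x' := by
  intro j
  induction j with
  | zero =>
    intro _ x x' h
    unfold countFrom
    have hx : ∀ {U : Type} [Fintype U] (K : SimpleGraph U) (u : Fin t → U),
        (Finset.univ.filter (fun z : Fin t → U => (∀ s : Fin t, 0 ≤ s.val → z s = u s) ∧
          wlColor K t r z = c)) =
        if wlColor K t r u = c then {u} else ∅ := by
      intro U _ K u
      ext z
      split_ifs with hc
      · simp only [Finset.mem_filter, Finset.mem_univ, true_and, Finset.mem_singleton]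
        constructor
        · rintro ⟨h1, -⟩; exact funext fun s => h1 s (Nat.zero_le _)
        · rintro rfl; exact ⟨fun _ _ => rfl, hc⟩
      · simp only [Finset.mem_filter, Finset.mem_univ, true_and, Finset.notMem_empty, iff_false]
        rintro ⟨h1, h2⟩
        have : z = u := funext fun s => h1 s (Nat.zero_le _)
        subst this
        exact hc h2
    rw [hx G x, hx H x']
    have h' : wlColor G t r x = wlColor H t r x' := h
    rw [h']
    split_ifs <;> simp
  | succ j ih =>
    intro hj x x' h
    have hjt : j < t := hj
    rw [countFrom_succ G r j hjt, countFrom_succ H r j hjt]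
    have h2 : EqAt G H ((r + j) + 1) x x' := h
    obtain ⟨e, he⟩ := exists_equiv_of_map_eq _ _ h2.multiset
    rw [← Equiv.sum_comp e]
    apply Finset.sum_congr rfl
    intro y _
    apply ih (le_of_lt hj)
    exact (congrFun (he y) ⟨j, hjt⟩).symm

/-- A single pair of tuples with equal colours in all rounds gives `t`-WL equivalence. -/
lemma wlEquiv_of_pair (x : Fin t → V) (x' : Fin t → W) (h : ∀ r, EqAt G H r x x') :
    WLEquiv t G H := by
  intro r
  ext c
  rw [Multiset.count_map, Multiset.count_map]
  have := countFrom_eq (G := G) (H := H) r c t le_rfl x x' (h _)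
  unfold countFrom at this
  have hA : ∀ {U : Type} [Fintype U] (K : SimpleGraph U) (u : Fin t → U),
      (Finset.univ.filter (fun z : Fin t → U => (∀ s : Fin t, t ≤ s.val → z s = u s) ∧
          wlColor K t r z = c)).card =
      (Multiset.filter (fun a => c = wlColor K t r a) (Finset.univ : Finset (Fin t → U)).val).card := by
    intro U _ K u
    rw [Finset.card_def, Finset.filter_val]
    congr 1
    apply Multiset.filter_congr
    intro z _
    constructor
    · rintro ⟨-, h2⟩; exact h2.symm
    · intro h2; exact ⟨fun s hs => absurd s.isLt (by omega), h2.symm⟩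
  rw [← hA G x, ← hA H x']
  exact this

/-- If no tuple of the other graph matches `x`, the graphs are not `t`-WL equivalent. -/
lemma not_wlEquiv_of_lost (x : Fin t → V) (h : ∀ x' : Fin t → W, LostAt G H x x') :
    ¬ WLEquiv t G H := by
  classical
  intro hE
  choose r hr using h
  let R := (Finset.univ : Finset (Fin t → W)).sup r
  have hx : wlColor G t R x ∈
      (Finset.univ : Finset (Fin t → V)).val.map (wlColor G t R) :=
    Multiset.mem_map.2 ⟨x, by simp, rfl⟩
  rw [hE R] at hx
  obtain ⟨x', -, hx'⟩ := Multiset.mem_map.1 hx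
  have hEq : EqAt G H R x x' := hx'.symm
  exact hr x' (EqAt.mono (Finset.le_sup (Finset.mem_univ x')) hEq)

end Vale.Agent.Lib.P310
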